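import Mathlib

set_option autoImplicit false
open MeasureTheory Set
open scoped ENNReal NNReal unitInterval Topology

namespace Crest.Agent.Helper7

/-- The cdf of an atomless measure is continuous. -/
lemma cdf_continuous_of_noAtoms (l : Measure ℝ) [IsProbabilityMeasure l] [NullSingletonClass l] :
    Continuous (ProbabilityTheory.cdf l) := by
  rw [continuous_iff_continuousAt]
  intro a
  rw [(ProbabilityTheory.cdf l).mono.continuousAt_iff_leftLim_eq_rightLim,
    StieltjesFunction.rightLim_eq]
  have h := (ProbabilityTheory.cdf l).measure_singleton a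
  rw [ProbabilityTheory.measure_cdf, measure_singleton] at h
  have h1 := ENNReal.ofReal_eq_zero.1 h.symm
  have h2 := (ProbabilityTheory.cdf l).mono.leftLim_le (le_refl a)
  linarith

/-- probability integral transform -/
lemma measure_cdf_le (l : Measure ℝ) [IsProbabilityMeasure l] [NullSingletonClass l] (t : ℝ) (ht0 : 0 ≤ t)
    (ht1 : t ≤ 1) : l {x | ProbabilityTheory.cdf l x ≤ t} = ENNReal.ofReal t := by
  set F := ProbabilityTheory.cdf l with hF
  have hcont : Continuous F := cdf_continuous_of_noAtoms l
  have hmono : Monotone F := ProbabilityTheory.monotone_cdf l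
  have htop := ProbabilityTheory.tendsto_cdf_atTop l
  have hbot := ProbabilityTheory.tendsto_cdf_atBot l
  rcases ht1.eq_or_lt with rfl | ht1
  · have : {x | F x ≤ 1} = univ := by
      ext x; simp [hF, ProbabilityTheory.cdf_le_one]
    rw [this]; simp
  by_cases hne : {x | F x ≤ t}.Nonempty
  · have hbdd : BddAbove {x | F x ≤ t} := by
      obtain ⟨b, hb⟩ := (htop.eventually (lt_mem_nhds ht1)).exists
      refine ⟨b, fun x hx => ?_⟩
      by_contra hlt
      have := hmono (not_le.1 hlt).le
      exact absurd (lt_of_lt_of_le hb this) (not_lt.2 hx)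
    have hcl : IsClosed {x | F x ≤ t} := isClosed_le hcont continuous_const
    set a := sSup {x | F x ≤ t} with ha
    have haM : F a ≤ t := hcl.csSup_mem hne hbdd
    have hIic : {x | F x ≤ t} = Iic a := by
      ext x
      exact ⟨fun hx => le_csSup hbdd hx, fun hx => (hmono hx).trans haM⟩
    have hFa : F a = t := by
      refine le_antisymm haM ?_
      by_contra hlt
      have h1 : ∀ᶠ x in 𝓝 a, F x < t := hcont.continuousAt.eventually (gt_mem_nhds (not_le.1 hlt))
      have h2 : ∀ᶠ x in 𝓝[>] a, F x < t := nhdsWithin_le_nhds h1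
      have h3 : ∀ᶠ x in 𝓝[>] a, a < x := self_mem_nhdsWithin
      obtain ⟨x, hx, hx'⟩ := (h2.and h3).exists
      have h4 : x ∈ {x | F x ≤ t} := le_of_lt hx
      rw [hIic] at h4
      exact absurd hx' (not_lt.2 h4)
    rw [hIic, ← ProbabilityTheory.ofReal_cdf l a, ← hF, hFa]
  · rw [Set.not_nonempty_iff_eq_empty] at hne
    have ht : t = 0 := by
      refine le_antisymm ?_ ht0
      refine ge_of_tendsto' hbot (fun x => ?_)
      by_contra hlt
      have : x ∈ {x | F x ≤ t} := (not_le.1 hlt).le
      rw [hne] at this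
      exact this
    rw [hne, ht]; simp

lemma exists_map_volume (l : Measure ℝ) [IsProbabilityMeasure l] [NullSingletonClass l] :
    ∃ G : ℝ → I, Measurable G ∧ l.map G = volume := by
  have hcont : Continuous (ProbabilityTheory.cdf l) := cdf_continuous_of_noAtoms l
  let G : ℝ → I := fun x =>
    ⟨ProbabilityTheory.cdf l x, ProbabilityTheory.cdf_nonneg l x, ProbabilityTheory.cdf_le_one l x⟩
  have hG : Measurable G := (hcont.subtype_mk _).measurable
  refine ⟨G, hG, ?_⟩
  have : IsProbabilityMeasure (l.map G) := Measure.isProbabilityMeasure_map hG.aemeasurable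
  refine Measure.ext_of_Iic _ _ (fun t => ?_)
  rw [Measure.map_apply hG measurableSet_Iic, unitInterval.volume_Iic,
    ← measure_cdf_le l t t.2.1 t.2.2]
  congr 1

/-- **Existence of transport maps**: an absolutely continuous finite measure can be pushed to
any finite measure of the same mass. -/
theorem exists_map_eq {d : ℕ} (hd : 0 < d) (ρ μ : Measure (EuclideanSpace ℝ (Fin d)))
    [IsFiniteMeasure ρ] [IsFiniteMeasure μ] (hρ : ρ.AbsolutelyContinuous volume)
    (hmass : ρ Set.univ = μ Set.univ) :
    ∃ S : EuclideanSpace ℝ (Fin d) → EuclideanSpace ℝ (Fin d), Measurable S ∧ ρ.map S = μ := by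
  by_cases h0 : ρ univ = 0
  · have h1 : ρ = 0 := Measure.measure_univ_eq_zero.1 h0
    have h2 : μ = 0 := Measure.measure_univ_eq_zero.1 (hmass ▸ h0)
    exact ⟨id, measurable_id, by rw [h1, h2, Measure.map_zero]⟩
  have hfin : ρ univ ≠ ∞ := measure_ne_top _ _
  set m := ρ univ with hm
  set ρ' := m⁻¹ • ρ with hρ'
  set μ' := m⁻¹ • μ with hμ'
  have : IsProbabilityMeasure ρ' := ⟨by
    rw [hρ', Measure.smul_apply, smul_eq_mul, ← hm, ENNReal.inv_mul_cancel h0 hfin]⟩
  have : IsProbabilityMeasure μ' := ⟨by
    rw [hμ', Measure.smul_apply, smul_eq_mul, ← hmass, ENNReal.inv_mul_cancel h0 hfin]⟩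
  have hρ'ac : ρ'.AbsolutelyContinuous volume := by
    rw [hρ']
    exact (Measure.smul_absolutelyContinuous).trans hρ
  let i : Fin d := ⟨0, hd⟩
  have hc : Measurable (fun x : EuclideanSpace ℝ (Fin d) => x i) := by fun_prop
  set l := ρ'.map (fun x : EuclideanSpace ℝ (Fin d) => x i) with hl
  have : IsProbabilityMeasure l := Measure.isProbabilityMeasure_map hc.aemeasurable
  have : NullSingletonClass l := by
    constructor
    intro a
    rw [hl, Measure.map_apply hc (measurableSet_singleton a)]
    apply hρ'ac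
    have h1 := (PiLp.volume_preserving_ofLp (Fin d)).measure_preimage
      (s := (fun y : Fin d → ℝ => y i) ⁻¹' {a})
      ((measurable_pi_apply i) (measurableSet_singleton a)).nullMeasurableSet
    have h2 : (volume : Measure (Fin d → ℝ)) ((fun y : Fin d → ℝ => y i) ⁻¹' {a}) = 0 := by
      have := Measure.pi_hyperplane (fun _ : Fin d => (volume : Measure ℝ)) i a
      exact this
    rw [h2] at h1
    exact h1
  obtain ⟨G, hG, hGm⟩ := exists_map_volume l
  obtain ⟨f, hf, hfm⟩ := μ'.exists_measurable_map_eq
  refine ⟨fun x => f (G (x i)), hf.comp (hG.comp hc), ?_⟩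
  have h3 : ρ'.map (fun x => f (G (x i))) = μ' := by
    rw [← hfm, ← hGm, hl, Measure.map_map hG hc, Measure.map_map hf (hG.comp hc)]
    rfl
  have h4 : ρ = m • ρ' := by
    rw [hρ', smul_smul, ENNReal.mul_inv_cancel h0 hfin, one_smul]
  have h5 : μ = m • μ' := by
    rw [hμ', smul_smul, ENNReal.mul_inv_cancel h0 hfin, one_smul]
  rw [h4, h5, Measure.map_smul, h3]

end Crest.Agent.Helper7
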