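import Mathlib
import Crest.Prelude.Def_ModularData

set_option autoImplicit false

open Filter MeasureTheory Topology
open scoped InnerProductSpace BoundedContinuousFunction

namespace Crest.Agent.Helper7

variable {E : Type*} [NormedAddCommGroup E] [NormedSpace ℝ E]

/-- window average over `[-k, k]` -/
noncomputable def wavg (f : ℝ → E) (k : ℕ) : E := ⨍ t in Set.Icc (-(k : ℝ)) (k : ℝ), f t

theorem wavg_zero (f : ℝ → E) : wavg f 0 = 0 := by
  unfold wavg
  simp [MeasureTheory.average_eq]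

theorem wavg_eq (f : ℝ → E) (k : ℕ) :
    wavg f k = (2 * (k : ℝ))⁻¹ • ∫ t in (-(k : ℝ))..(k : ℝ), f t := by
  unfold wavg
  rw [MeasureTheory.setAverage_eq, intervalIntegral.integral_of_le (by simp),
    MeasureTheory.integral_Icc_eq_integral_Ioc, MeasureTheory.measureReal_def, Real.volume_Icc]
  congr 2
  rw [ENNReal.toReal_ofReal (by simp)]
  ring

theorem wavg_norm_le {f : ℝ → E} {C : ℝ} (hC : ∀ t, ‖f t‖ ≤ C) (k : ℕ) : ‖wavg f k‖ ≤ C := by
  have hC0 : 0 ≤ C := (norm_nonneg _).trans (hC 0)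
  rcases Nat.eq_zero_or_pos k with rfl | hk
  · rw [wavg_zero, norm_zero]; exact hC0
  · rw [wavg_eq, norm_smul]
    have hk' : (0 : ℝ) < k := by exact_mod_cast hk
    have h := intervalIntegral.norm_integral_le_of_norm_le_const (a := (-(k : ℝ))) (b := k)
      (f := f) (C := C) (fun t _ => hC t)
    have h2 : |(k : ℝ) - -(k : ℝ)| = 2 * k := by
      rw [abs_of_pos] <;> linarith
    rw [h2] at h
    have h3 : ‖(2 * (k : ℝ))⁻¹‖ = (2 * (k : ℝ))⁻¹ := by
      rw [Real.norm_eq_abs, abs_of_pos (by positivity)]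
    rw [h3]
    calc (2 * (k : ℝ))⁻¹ * ‖∫ t in (-(k : ℝ))..(k : ℝ), f t‖
        ≤ (2 * (k : ℝ))⁻¹ * (C * (2 * k)) := mul_le_mul_of_nonneg_left h (by positivity)
      _ = C := by field_simp

theorem wavg_add {f g : ℝ → E} (hf : Continuous f) (hg : Continuous g) (k : ℕ) :
    wavg (fun t => f t + g t) k = wavg f k + wavg g k := by
  rw [wavg_eq, wavg_eq, wavg_eq, ← smul_add, intervalIntegral.integral_add
    (hf.intervalIntegrable _ _) (hg.intervalIntegrable _ _)]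

theorem wavg_smul {𝕜 : Type*} [RCLike 𝕜] [NormedSpace 𝕜 E] [SMulCommClass ℝ 𝕜 E]
    (c : 𝕜) (f : ℝ → E) (k : ℕ) :
    wavg (fun t => c • f t) k = c • wavg f k := by
  rw [wavg_eq, wavg_eq, intervalIntegral.integral_smul, smul_comm]

theorem wavg_const [CompleteSpace E] (c : E) {k : ℕ} (hk : 0 < k) :
    wavg (fun _ => c) k = c := by
  rw [wavg_eq, intervalIntegral.integral_const, smul_smul]
  have hk' : (0 : ℝ) < k := by exact_mod_cast hk
  have : (2 * (k : ℝ))⁻¹ * (k - -k) = 1 := by field_simp; ring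
  rw [this, one_smul]

theorem wavg_neg_arg (f : ℝ → E) (k : ℕ) : wavg (fun t => f (-t)) k = wavg f k := by
  rw [wavg_eq, wavg_eq, intervalIntegral.integral_comp_neg]
  simp

theorem wavg_shift_sub {f : ℝ → E} (hf : Continuous f) {C : ℝ} (hC : ∀ t, ‖f t‖ ≤ C) (s : ℝ)
    {k : ℕ} (hk : 0 < k) : ‖wavg (fun t => f (t + s)) k - wavg f k‖ ≤ (|s| * C) / k := by
  have hk' : (0 : ℝ) < k := by exact_mod_cast hk
  rw [wavg_eq, wavg_eq, intervalIntegral.integral_comp_add_right, ← smul_sub, norm_smul]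
  have h1 : (∫ t in (-(k : ℝ) + s)..(k + s), f t) - ∫ t in (-(k : ℝ))..(k : ℝ), f t
      = (∫ t in (k : ℝ)..(k + s), f t) - ∫ t in (-(k : ℝ))..(-(k : ℝ) + s), f t := by
    have hi : ∀ a b : ℝ, IntervalIntegrable f volume a b := fun a b => hf.intervalIntegrable a b
    have e1 := intervalIntegral.integral_add_adjacent_intervals (hi (-(k : ℝ)) (-(k : ℝ) + s))
      (hi (-(k : ℝ) + s) (k + s))
    have e2 := intervalIntegral.integral_add_adjacent_intervals (hi (-(k : ℝ)) k)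
      (hi k (k + s))
    rw [sub_eq_sub_iff_add_eq_add, add_comm (∫ t in (-(k : ℝ) + s)..(k + s), f t), e1,
      add_comm (∫ t in (k : ℝ)..(k + s), f t), e2]
  rw [h1]
  have h2 := intervalIntegral.norm_integral_le_of_norm_le_const (a := (k : ℝ)) (b := k + s)
      (f := f) (C := C) (fun t _ => hC t)
  have h3 := intervalIntegral.norm_integral_le_of_norm_le_const (a := -(k : ℝ)) (b := -(k : ℝ) + s)
      (f := f) (C := C) (fun t _ => hC t)
  rw [add_sub_cancel_left] at h2 h3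
  have h4 := norm_sub_le (∫ t in (k : ℝ)..(k + s), f t) (∫ t in (-(k : ℝ))..(-(k : ℝ) + s), f t)
  have h5 : ‖(2 * (k : ℝ))⁻¹‖ = (2 * (k : ℝ))⁻¹ := by
    rw [Real.norm_eq_abs, abs_of_pos (by positivity)]
  rw [h5]
  calc (2 * (k : ℝ))⁻¹ * ‖(∫ t in (k : ℝ)..(k + s), f t) - ∫ t in (-(k : ℝ))..(-(k : ℝ) + s), f t‖
      ≤ (2 * (k : ℝ))⁻¹ * (C * |s| + C * |s|) :=
        mul_le_mul_of_nonneg_left (h4.trans (add_le_add h2 h3)) (by positivity)
    _ = (|s| * C) / k := by field_simp; ring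

theorem exists_tendsto_wavg [ProperSpace E] (ω : Ultrafilter ℕ) {f : ℝ → E} {C : ℝ}
    (hC : ∀ t, ‖f t‖ ≤ C) : ∃ l : E, Tendsto (wavg f) (ω : Filter ℕ) (𝓝 l) := by
  have hcomp := isCompact_closedBall (0 : E) C
  have hmem : (ω.map (wavg f) : Ultrafilter E) ≤ 𝓟 (Metric.closedBall (0 : E) C) := by
    rw [le_principal_iff]
    change wavg f ⁻¹' _ ∈ ω
    have : wavg f ⁻¹' Metric.closedBall (0 : E) C = Set.univ := by
      ext k
      simp [wavg_norm_le hC k]
    rw [this]; exact Filter.univ_mem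
  obtain ⟨l, _, hl⟩ := hcomp.ultrafilter_le_nhds _ hmem
  exact ⟨l, hl⟩

/-- the mean along `ω` -/
noncomputable def omean (ω : Ultrafilter ℕ) (f : ℝ → E) : E :=
  @limUnder _ _ _ ⟨0⟩ (ω : Filter ℕ) (wavg f)

theorem tendsto_omean [ProperSpace E] (ω : Ultrafilter ℕ) {f : ℝ → E} {C : ℝ}
    (hC : ∀ t, ‖f t‖ ≤ C) : Tendsto (wavg f) (ω : Filter ℕ) (𝓝 (omean ω f)) :=
  letI : Nonempty E := ⟨0⟩
  tendsto_nhds_limUnder (exists_tendsto_wavg ω hC)

theorem omean_eq {ω : Ultrafilter ℕ} {f : ℝ → E} {l : E}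
    (h : Tendsto (wavg f) (ω : Filter ℕ) (𝓝 l)) : omean ω f = l := h.limUnder_eq

theorem norm_omean_le [ProperSpace E] (ω : Ultrafilter ℕ) {f : ℝ → E} {C : ℝ}
    (hC : ∀ t, ‖f t‖ ≤ C) : ‖omean ω f‖ ≤ C := by
  have h := (tendsto_omean ω hC).norm
  exact le_of_tendsto' h fun k => wavg_norm_le hC k

theorem omean_add [ProperSpace E] (ω : Ultrafilter ℕ) {f g : ℝ → E} {C C' : ℝ}
    (hf : Continuous f) (hg : Continuous g)
    (hC : ∀ t, ‖f t‖ ≤ C) (hC' : ∀ t, ‖g t‖ ≤ C') :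
    omean ω (fun t => f t + g t) = omean ω f + omean ω g := by
  refine omean_eq ?_
  have := (tendsto_omean ω hC).add (tendsto_omean ω hC')
  refine this.congr fun k => ?_
  rw [wavg_add hf hg]

theorem omean_smul {𝕜 : Type*} [RCLike 𝕜] [NormedSpace 𝕜 E] [SMulCommClass ℝ 𝕜 E]
    [ProperSpace E] (ω : Ultrafilter ℕ) {f : ℝ → E} {C : ℝ} (c : 𝕜)
    (hC : ∀ t, ‖f t‖ ≤ C) :
    omean ω (fun t => c • f t) = c • omean ω f := by
  refine omean_eq ?_
  have := (tendsto_omean ω hC).const_smul c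
  refine this.congr fun k => ?_
  rw [wavg_smul]

theorem omean_shift [ProperSpace E] {ω : Ultrafilter ℕ} (hω : (ω : Filter ℕ) ≤ atTop)
    {f : ℝ → E} {C : ℝ}
    (hf : Continuous f) (hC : ∀ t, ‖f t‖ ≤ C) (s : ℝ) :
    omean ω (fun t => f (t + s)) = omean ω f := by
  refine omean_eq ?_
  have h1 := tendsto_omean ω hC
  have h2 : Tendsto (fun k : ℕ => (|s| * C) / (k : ℝ)) (ω : Filter ℕ) (𝓝 0) :=
    (tendsto_const_div_atTop_nhds_zero_nat _).mono_left hω
  have h3 : Tendsto (fun k : ℕ => wavg (fun t => f (t + s)) k - wavg f k) (ω : Filter ℕ)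
      (𝓝 0) := by
    refine squeeze_zero_norm' ?_ h2
    have : ∀ᶠ k : ℕ in (ω : Filter ℕ), 0 < k := hω (eventually_gt_atTop 0)
    filter_upwards [this] with k hk
    exact wavg_shift_sub hf hC s hk
  have h4 := h3.add h1
  rw [zero_add] at h4
  refine h4.congr fun k => ?_
  abel

theorem omean_const [CompleteSpace E] {ω : Ultrafilter ℕ} (hω : (ω : Filter ℕ) ≤ atTop) (c : E) :
    omean ω (fun _ => c) = c := by
  refine omean_eq ?_
  have : ∀ᶠ k : ℕ in (ω : Filter ℕ), wavg (fun _ : ℝ => c) k = c := by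
    have : ∀ᶠ k : ℕ in (ω : Filter ℕ), 0 < k := hω (eventually_gt_atTop 0)
    filter_upwards [this] with k hk
    exact wavg_const c hk
  exact (tendsto_congr' this).2 tendsto_const_nhds

end Crest.Agent.Helper7
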