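import Crest.Agent.Helper7.Vacuum
import Crest.Agent.Helper7.OMean

set_option autoImplicit false

open Filter MeasureTheory Topology
open scoped InnerProductSpace BoundedContinuousFunction

namespace Crest.Agent.Helper7

open Crest.OpAlg Crest.OpAlg.LineCalculus

variable {H : Type*} [NormedAddCommGroup H] [InnerProductSpace ℂ H] [CompleteSpace H]

theorem flow_apply (S : ModularDatum H) (t : ℝ) (a : H →L[ℂ] H) (x : H) :
    S.flow t a x = S.D.wave t (a (S.D.wave (-t) x)) := rfl

theorem inner_flow (S : ModularDatum H) (t : ℝ) (a : H →L[ℂ] H) (x y : H) :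
    ⟪x, S.flow t a y⟫_ℂ = ⟪S.D.wave (-t) x, a (S.D.wave (-t) y)⟫_ℂ := by
  rw [flow_apply, inner_wave_right]

theorem continuous_inner_flow (S : ModularDatum H) (a : H →L[ℂ] H) (x y : H) :
    Continuous fun t : ℝ => ⟪x, S.flow t a y⟫_ℂ := by
  simp_rw [inner_flow]
  have h1 : Continuous fun t : ℝ => S.D.wave (-t) x := (continuous_wave S.D x).comp continuous_neg
  have h2 : Continuous fun t : ℝ => S.D.wave (-t) y := (continuous_wave S.D y).comp continuous_neg
  exact h1.inner (a.continuous.comp h2)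

theorem norm_inner_flow_le (S : ModularDatum H) (t : ℝ) (a : H →L[ℂ] H) (x y : H) :
    ‖⟪x, S.flow t a y⟫_ℂ‖ ≤ ‖a‖ * ‖x‖ * ‖y‖ := by
  rw [inner_flow]
  calc _ ≤ ‖S.D.wave (-t) x‖ * ‖a (S.D.wave (-t) y)‖ := norm_inner_le_norm _ _
    _ ≤ ‖S.D.wave (-t) x‖ * (‖a‖ * ‖S.D.wave (-t) y‖) :=
        mul_le_mul_of_nonneg_left (a.le_opNorm _) (norm_nonneg _)
    _ = ‖a‖ * ‖x‖ * ‖y‖ := by rw [norm_wave, norm_wave]; ring

/-- the sesquilinear mean form -/
noncomputable def meanForm (S : ModularDatum H) (ω : Ultrafilter ℕ) (a : H →L[ℂ] H) :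
    H →L⋆[ℂ] H →L[ℂ] ℂ :=
  LinearMap.mkContinuous₂
    (LinearMap.mk₂'ₛₗ (starRingEnd ℂ) (RingHom.id ℂ)
      (fun x y => omean ω (fun t : ℝ => ⟪x, S.flow t a y⟫_ℂ))
      (fun x x' y => by
        simp_rw [inner_add_left]
        exact omean_add ω (continuous_inner_flow S a x y) (continuous_inner_flow S a x' y)
          (fun t => norm_inner_flow_le S t a x y) (fun t => norm_inner_flow_le S t a x' y))
      (fun c x y => by
        simp_rw [inner_smul_left]
        exact omean_smul ω ((starRingEnd ℂ) c) (fun t => norm_inner_flow_le S t a x y))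
      (fun x y y' => by
        simp_rw [map_add, inner_add_right]
        exact omean_add ω (continuous_inner_flow S a x y) (continuous_inner_flow S a x y')
          (fun t => norm_inner_flow_le S t a x y) (fun t => norm_inner_flow_le S t a x y'))
      (fun c x y => by
        simp_rw [map_smul, inner_smul_right]
        exact omean_smul ω c (fun t => norm_inner_flow_le S t a x y)))
    ‖a‖ (fun x y => norm_omean_le ω (fun t => norm_inner_flow_le S t a x y))

theorem meanForm_apply (S : ModularDatum H) (ω : Ultrafilter ℕ) (a : H →L[ℂ] H) (x y : H) :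
    meanForm S ω a x y = omean ω (fun t : ℝ => ⟪x, S.flow t a y⟫_ℂ) := rfl

/-- the mean operator -/
noncomputable def meanOp (S : ModularDatum H) (ω : Ultrafilter ℕ) (a : H →L[ℂ] H) : H →L[ℂ] H :=
  star (InnerProductSpace.continuousLinearMapOfBilin (meanForm S ω a))

theorem inner_meanOp (S : ModularDatum H) (ω : Ultrafilter ℕ) (a : H →L[ℂ] H) (x y : H) :
    ⟪x, meanOp S ω a y⟫_ℂ = omean ω (fun t : ℝ => ⟪x, S.flow t a y⟫_ℂ) := by
  rw [meanOp, ContinuousLinearMap.star_eq_adjoint, ContinuousLinearMap.adjoint_inner_right,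
    InnerProductSpace.continuousLinearMapOfBilin_apply, meanForm_apply]

theorem flow_mem' (S : ModularDatum H) (t : ℝ) {a : H →L[ℂ] H} (ha : a ∈ S.M) :
    S.flow t a ∈ S.M := S.flow_mem t a ha

theorem mem_of_commutes (S : ModularDatum H) {a : H →L[ℂ] H}
    (h : ∀ g ∈ S.M.commutant, ∀ x, g (a x) = a (g x)) : a ∈ S.M := by
  rw [← VonNeumannAlgebra.commutant_commutant S.M, VonNeumannAlgebra.mem_commutant_iff]
  intro g hg
  ext x
  exact h g hg x

theorem commutes_of_mem (S : ModularDatum H) {a g : H →L[ℂ] H} (ha : a ∈ S.M)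
    (hg : g ∈ S.M.commutant) (x : H) : g (a x) = a (g x) := by
  have := (VonNeumannAlgebra.mem_commutant_iff.1 hg) a ha
  exact (congrArg (fun A : H →L[ℂ] H => A x) this).symm

theorem meanOp_mem (S : ModularDatum H) (ω : Ultrafilter ℕ) {a : H →L[ℂ] H} (ha : a ∈ S.M) :
    meanOp S ω a ∈ S.M := by
  refine mem_of_commutes S fun g hg x => ?_
  refine ext_inner_left ℂ fun v => ?_
  rw [inner_meanOp, ← ContinuousLinearMap.adjoint_inner_left, inner_meanOp]
  congr 1
  funext t
  rw [ContinuousLinearMap.adjoint_inner_left, commutes_of_mem S (flow_mem' S t ha) hg]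

theorem meanOp_flow (S : ModularDatum H) {ω : Ultrafilter ℕ} (hω : (ω : Filter ℕ) ≤ atTop)
    (a : H →L[ℂ] H) (s : ℝ) : S.flow s (meanOp S ω a) = meanOp S ω a := by
  ext x
  refine ext_inner_left ℂ fun v => ?_
  rw [inner_flow, inner_meanOp, inner_meanOp,
    ← omean_shift hω (continuous_inner_flow S a v x) (fun t => norm_inner_flow_le S t a v x) s]
  congr 1
  funext t
  rw [inner_flow, inner_flow]
  have : ∀ y : H, S.D.wave (-(t + s)) y = S.D.wave (-t) (S.D.wave (-s) y) := by
    intro y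
    rw [neg_add, wave_add]; rfl
  rw [this, this]

theorem flow_vac (S : ModularDatum H) (t : ℝ) (a : H →L[ℂ] H) :
    S.flow t a S.vac = S.D.wave t (a S.vac) := by
  rw [flow_apply, wave_vac]

/-- The ergodic theorem in mean: window averages of matrix coefficients of the flow converge. -/
theorem ergodic_mean (S : ModularDatum H) (herg : S.Ergodic) {ω : Ultrafilter ℕ}
    (hω : (ω : Filter ℕ) ≤ atTop) {a : H →L[ℂ] H} (ha : a ∈ S.M) (x y : H) :
    Tendsto (wavg fun t : ℝ => ⟪x, S.flow t a y⟫_ℂ) (ω : Filter ℕ)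
      (𝓝 (⟪S.vac, a S.vac⟫_ℂ * ⟪x, y⟫_ℂ)) := by
  obtain ⟨c, hc⟩ := herg _ (meanOp_mem S ω ha) (fun t => meanOp_flow S hω a t)
  have h1 : ∀ x y : H, omean ω (fun t : ℝ => ⟪x, S.flow t a y⟫_ℂ) = c * ⟪x, y⟫_ℂ := by
    intro x y
    rw [← inner_meanOp, hc]
    simp
  have h2 : c = ⟪S.vac, a S.vac⟫_ℂ := by
    have e1 := h1 S.vac S.vac
    have e2 : (fun t : ℝ => ⟪S.vac, S.flow t a S.vac⟫_ℂ) = fun _ => ⟪S.vac, a S.vac⟫_ℂ := by
      funext t
      rw [inner_flow, wave_vac]
    rw [e2, omean_const hω, inner_self_eq_norm_sq_to_K, S.norm_vac] at e1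
    simp at e1
    exact e1.symm
  rw [← h2, ← h1 x y]
  exact tendsto_omean ω (fun t => norm_inner_flow_le S t a x y)

end Crest.Agent.Helper7
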