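import Crest.Agent.Helper7.Step

set_option autoImplicit false

open Filter MeasureTheory Topology
open scoped InnerProductSpace BoundedContinuousFunction

namespace Crest.Agent.Helper7

open Crest.OpAlg Crest.OpAlg.LineCalculus

variable {H : Type*} [NormedAddCommGroup H] [InnerProductSpace ℂ H] [CompleteSpace H]

theorem greedy (S : ModularDatum H) (herg : S.Ergodic) {ω : Ultrafilter ℕ}
    (hω : (ω : Filter ℕ) ≤ atTop) (T : H →L[ℂ] H) {K : Set ℝ} {b : ℝ} (hK : ∀ u ∈ K, u ≤ b)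
    {a : H →L[ℂ] H} (ha : a ∈ S.M)
    (haK : S.D.SupportedIn K (a S.vac))
    {m : ℝ} (hm : m ≤ ultraMean ω (fun t : ℝ => ‖T (S.D.wave t (a S.vac))‖ ^ 2))
    {β : ℝ} (hβ : 0 ≤ β) {η : ℝ} (hη : 0 < η) (N : ℕ) (k : ℕ) (hk : k ≤ N) :
    ∃ G : H →L[ℂ] H, G ∈ S.M ∧ S.D.SupportedIn K (G S.vac) ∧
      (k : ℝ) * (m - η - β * ‖(star a * a) S.vac‖ ^ 2
        - (N : ℝ) * (β * (2 * (1 + 2 * Real.exp b)) * ‖a S.vac‖ ^ 2 * ‖a S.vac‖ ^ 2))
        ≤ pot S T β (((N : ℝ) - k) * (β * (2 * (1 + 2 * Real.exp b)) * ‖a S.vac‖ ^ 2)) G := by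
  induction k with
  | zero =>
    refine ⟨0, zero_mem _, ?_, ?_⟩
    · intro f _; simp
    · simp [pot]
  | succ k ih =>
    obtain ⟨G, hG, hGK, hpot⟩ := ih (Nat.le_of_succ_le hk)
    obtain ⟨G', hG', hGK', hstep⟩ := pot_step S herg hω T hK ha hG haK hGK hm hβ
      (((N : ℝ) - (k + 1 : ℕ)) * (β * (2 * (1 + 2 * Real.exp b)) * ‖a S.vac‖ ^ 2)) η hη
    refine ⟨G', hG', hGK', le_trans ?_ hstep⟩
    set c := β * (2 * (1 + 2 * Real.exp b)) * ‖a S.vac‖ ^ 2 with hc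
    have hc0 : 0 ≤ c := by positivity
    unfold pot at hpot
    have hA : 0 ≤ ‖a S.vac‖ ^ 2 := by positivity
    have hkN : ((N : ℝ) - (k + 1 : ℕ)) * (c * ‖a S.vac‖ ^ 2) ≤ (N : ℝ) * (c * ‖a S.vac‖ ^ 2) := by
      apply mul_le_mul_of_nonneg_right _ (by positivity)
      have : (0 : ℝ) ≤ ((k + 1 : ℕ) : ℝ) := Nat.cast_nonneg _
      linarith
    have hcast : ((k + 1 : ℕ) : ℝ) = (k : ℝ) + 1 := by push_cast; ring
    rw [hcast] at hkN ⊢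
    have e1 : β * (2 * (1 + 2 * Real.exp b) * ‖a S.vac‖ ^ 2 * ‖G S.vac‖ ^ 2) =
      c * ‖G S.vac‖ ^ 2 := by rw [hc]; ring
    linarith [hpot, hkN, e1]

/-- existence of the good element before truncation -/
theorem exists_good (S : ModularDatum H) (herg : S.Ergodic) {ω : Ultrafilter ℕ}
    (hω : (ω : Filter ℕ) ≤ atTop) (T : H →L[ℂ] H) {K : Set ℝ} {b : ℝ} (hK : ∀ u ∈ K, u ≤ b)
    {a : H →L[ℂ] H} (ha : a ∈ S.M)
    (haK : S.D.SupportedIn K (a S.vac))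
    {m : ℝ} (hm0 : 0 < m)
    (hm : m ≤ ultraMean ω (fun t : ℝ => ‖T (S.D.wave t (a S.vac))‖ ^ 2))
    {β : ℝ} (hβ : 0 ≤ β)
    (hβm : β * (2 * (1 + 2 * Real.exp b)) * ‖a S.vac‖ ^ 2 * ‖a S.vac‖ ^ 2 ≤ m / 4) :
    ∃ G : H →L[ℂ] H, G ∈ S.M ∧ S.D.SupportedIn K (G S.vac) ∧
      m / 2 ≤ ‖T (G S.vac)‖ ^ 2 - β * ‖(star G * G) S.vac‖ ^ 2 := by
  obtain ⟨N, hN⟩ := exists_nat_gt (max 1 (β * ‖(star a * a) S.vac‖ ^ 2 / (m / 8)))
  have hN1 : (1 : ℝ) < N := lt_of_le_of_lt (le_max_left _ _) hN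
  have hN2 : β * ‖(star a * a) S.vac‖ ^ 2 / (m / 8) < N := lt_of_le_of_lt (le_max_right _ _) hN
  have hN0 : (0 : ℝ) < N := by linarith
  obtain ⟨G, hG, hGK, hpot⟩ := greedy S herg hω T hK ha haK hm (β := β / N) (by positivity)
    (η := m / 8) (by positivity) N N le_rfl
  have h1 : β / N * ‖(star a * a) S.vac‖ ^ 2 ≤ m / 8 := by
    rw [div_lt_iff₀ (by positivity)] at hN2
    rw [div_mul_eq_mul_div, div_le_iff₀ hN0]
    linarith
  have h2 : (N : ℝ) * (β / N * (2 * (1 + 2 * Real.exp b)) * ‖a S.vac‖ ^ 2 * ‖a S.vac‖ ^ 2)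
      ≤ m / 4 := by
    have : (N : ℝ) * (β / N * (2 * (1 + 2 * Real.exp b)) * ‖a S.vac‖ ^ 2 * ‖a S.vac‖ ^ 2)
      = β * (2 * (1 + 2 * Real.exp b)) * ‖a S.vac‖ ^ 2 * ‖a S.vac‖ ^ 2 := by
      field_simp
    rw [this]; exact hβm
  have h3 : (N : ℝ) * (m / 2) ≤ pot S T (β / N) 0 G := by
    have e : ((N : ℝ) - N) * (β / N * (2 * (1 + 2 * Real.exp b)) * ‖a S.vac‖ ^ 2) = 0 := by
      rw [sub_self, zero_mul]
    rw [e] at hpot
    refine le_trans ?_ hpot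
    apply mul_le_mul_of_nonneg_left _ hN0.le
    linarith
  -- rescale
  set r : ℝ := (Real.sqrt N)⁻¹ with hr
  have hsq : Real.sqrt N * Real.sqrt N = N := Real.mul_self_sqrt hN0.le
  have hs0 : 0 < Real.sqrt N := Real.sqrt_pos.2 hN0
  have hr2 : r ^ 2 = 1 / N := by
    rw [hr, inv_pow, sq, hsq, one_div]
  have hr0 : 0 ≤ r := by positivity
  refine ⟨(r : ℂ) • G, ?_, ?_, ?_⟩
  · exact S.M.toStarSubalgebra.smul_mem hG (r : ℂ)
  · exact SupportedIn.smul (r : ℂ) hGK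
  · have n1 : ‖T (((r : ℂ) • G) S.vac)‖ ^ 2 = (1 / N) * ‖T (G S.vac)‖ ^ 2 := by
      rw [smul_apply, map_smul, norm_smul, mul_pow, Complex.norm_real,
        Real.norm_eq_abs, sq_abs, hr2]
    have n2 : ‖(star ((r : ℂ) • G) * ((r : ℂ) • G)) S.vac‖ ^ 2
        = (1 / N) ^ 2 * ‖(star G * G) S.vac‖ ^ 2 := by
      have : star ((r : ℂ) • G) * ((r : ℂ) • G) = ((r ^ 2 : ℝ) : ℂ) • (star G * G) := by
        rw [star_smul, smul_mul_assoc, mul_smul_comm, smul_smul]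
        congr 1
        simp [sq]
      rw [this, smul_apply, norm_smul, mul_pow, Complex.norm_real,
        Real.norm_eq_abs, sq_abs, hr2]
    rw [n1, n2]
    unfold pot at h3
    rw [zero_mul, sub_zero] at h3
    have h4 : m / 2 ≤ (1 / N) * (‖T (G S.vac)‖ ^ 2 - β / N * ‖(star G * G) S.vac‖ ^ 2) := by
      rw [one_div, ← div_eq_inv_mul, le_div_iff₀ hN0]
      linarith
    refine h4.trans (le_of_eq ?_)
    field_simp

end Crest.Agent.Helper7
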