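import Mathlib
import Crest.Prelude.Def_ModularData

set_option autoImplicit false

open Filter MeasureTheory Topology
open scoped InnerProductSpace BoundedContinuousFunction

namespace Crest.Agent.Helper7

open Crest.OpAlg Crest.OpAlg.LineCalculus

variable {H : Type*} [NormedAddCommGroup H] [InnerProductSpace ℂ H] [CompleteSpace H]

theorem apply_norm_le (D : LineCalculus H) (f : BoundedContinuousFunction ℝ ℂ) :
    ‖D.apply f‖ ≤ ‖f‖ := NonUnitalStarAlgHom.norm_apply_le _ _

theorem apply_apply_norm_le (D : LineCalculus H) (f : BoundedContinuousFunction ℝ ℂ) (x : H) :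
    ‖D.apply f x‖ ≤ ‖f‖ * ‖x‖ :=
  ((D.apply f).le_opNorm x).trans (mul_le_mul_of_nonneg_right (apply_norm_le D f) (norm_nonneg x))

theorem apply_mul_apply (D : LineCalculus H) (f g : BoundedContinuousFunction ℝ ℂ) (x : H) :
    D.apply (f * g) x = D.apply f (D.apply g x) := by
  rw [map_mul]; rfl

@[simp] theorem character_apply (t u : ℝ) :
    character t u = Complex.exp (Complex.I * ((t * u : ℝ) : ℂ)) := rfl

theorem character_add (s t : ℝ) : character (s + t) = character s * character t := by
  ext u
  simp only [character_apply, BoundedContinuousFunction.coe_mul, Pi.mul_apply]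
  rw [← Complex.exp_add]; congr 1; push_cast; ring

theorem character_zero : character 0 = 1 := by
  ext u
  simp

theorem star_character (t : ℝ) : star (character t) = character (-t) := by
  ext u
  simp only [BoundedContinuousFunction.star_apply, character_apply, RCLike.star_def]
  rw [← Complex.exp_conj]
  congr 1
  simp

theorem character_norm_le (t : ℝ) : ‖character t‖ ≤ 1 :=
  (BoundedContinuousFunction.norm_le zero_le_one).2 fun u => by
    rw [character_apply, Complex.norm_exp]; simp

theorem wave_add (D : LineCalculus H) (s t : ℝ) : D.wave (s + t) = D.wave s * D.wave t := by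
  rw [wave, character_add, map_mul]; rfl

theorem wave_zero (D : LineCalculus H) : D.wave 0 = 1 := by
  rw [wave, character_zero, map_one]

theorem star_wave (D : LineCalculus H) (t : ℝ) : star (D.wave t) = D.wave (-t) := by
  rw [wave, wave, ← map_star, star_character]

theorem wave_mul_wave_neg (D : LineCalculus H) (t : ℝ) : D.wave t * D.wave (-t) = 1 := by
  rw [← wave_add, add_neg_cancel, wave_zero]

theorem wave_neg_mul_wave (D : LineCalculus H) (t : ℝ) : D.wave (-t) * D.wave t = 1 := by
  rw [← wave_add, neg_add_cancel, wave_zero]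

theorem wave_wave_neg (D : LineCalculus H) (t : ℝ) (x : H) : D.wave t (D.wave (-t) x) = x := by
  have := congrArg (fun A : H →L[ℂ] H => A x) (wave_mul_wave_neg D t)
  simpa using this

theorem wave_neg_wave (D : LineCalculus H) (t : ℝ) (x : H) : D.wave (-t) (D.wave t x) = x := by
  have := congrArg (fun A : H →L[ℂ] H => A x) (wave_neg_mul_wave D t)
  simpa using this

theorem inner_wave_left (D : LineCalculus H) (t : ℝ) (x y : H) :
    ⟪D.wave t x, y⟫_ℂ = ⟪x, D.wave (-t) y⟫_ℂ := by
  rw [← star_wave, ContinuousLinearMap.star_eq_adjoint, ContinuousLinearMap.adjoint_inner_right]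

theorem inner_wave_right (D : LineCalculus H) (t : ℝ) (x y : H) :
    ⟪x, D.wave t y⟫_ℂ = ⟪D.wave (-t) x, y⟫_ℂ := by
  rw [inner_wave_left, neg_neg]

theorem norm_wave (D : LineCalculus H) (t : ℝ) (x : H) : ‖D.wave t x‖ = ‖x‖ := by
  have h : ⟪D.wave t x, D.wave t x⟫_ℂ = ⟪x, x⟫_ℂ := by
    rw [inner_wave_left, wave_neg_wave]
  rw [inner_self_eq_norm_sq_to_K, inner_self_eq_norm_sq_to_K] at h
  have h2 : ‖D.wave t x‖ ^ 2 = ‖x‖ ^ 2 := by exact_mod_cast h
  exact (pow_left_inj₀ (norm_nonneg _) (norm_nonneg _) two_ne_zero).1 h2

theorem norm_wave_le (D : LineCalculus H) (t : ℝ) : ‖D.wave t‖ ≤ 1 :=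
  (apply_norm_le D _).trans (character_norm_le t)

/-- approximation by compactly supported spectral vectors -/
theorem window_dense (D : LineCalculus H) (x : H) (ε : ℝ) (hε : 0 < ε) :
    ∃ (p : BoundedContinuousFunction ℝ ℂ) (R : ℝ), 0 < R ∧ (∀ u, R < |u| → p u = 0) ∧
      ‖D.apply p x - x‖ < ε := by
  obtain ⟨p, hp, hx⟩ := D.window x ε hε
  obtain ⟨R, hR⟩ := (Metric.isBounded_iff_subset_closedBall (0 : ℝ)).1 hp.isCompact.isBounded
  refine ⟨p, max R 1, by positivity, fun u hu => ?_, hx⟩
  by_contra hne
  have : u ∈ tsupport (p : ℝ → ℂ) := subset_tsupport _ (by simpa using hne)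
  have := hR this
  rw [Metric.mem_closedBall, dist_zero_right, Real.norm_eq_abs] at this
  exact absurd (lt_of_le_of_lt (this.trans (le_max_left _ _)) hu) (lt_irrefl _)

/-- characters times a compactly supported function are Lipschitz in the frequency -/
theorem character_mul_lipschitz (p : BoundedContinuousFunction ℝ ℂ) (R : ℝ) (hR : 0 < R)
    (hp : ∀ u, R < |u| → p u = 0) (s t : ℝ) :
    ‖character s * p - character t * p‖ ≤ |s - t| * R * ‖p‖ := by
  refine (BoundedContinuousFunction.norm_le (by positivity)).2 fun u => ?_
  simp only [BoundedContinuousFunction.coe_sub, BoundedContinuousFunction.coe_mul, Pi.sub_apply,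
    Pi.mul_apply, character_apply]
  rw [← sub_mul, norm_mul]
  by_cases hu : R < |u|
  · rw [hp u hu]; simp; positivity
  · push Not at hu
    refine mul_le_mul ?_ (p.norm_coe_le_norm u) (norm_nonneg _) (by positivity)
    have h1 : Complex.exp (Complex.I * ((s * u : ℝ) : ℂ)) - Complex.exp (Complex.I * ((t * u : ℝ) : ℂ))
        = Complex.exp (Complex.I * ((t * u : ℝ) : ℂ)) *
          (Complex.exp (Complex.I * (((s - t) * u : ℝ) : ℂ)) - 1) := by
      rw [mul_sub, ← Complex.exp_add, mul_one]; congr 2; push_cast; ring
    rw [h1, norm_mul]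
    have h2 : ‖Complex.exp (Complex.I * ((t * u : ℝ) : ℂ))‖ = 1 := by
      rw [Complex.norm_exp]; simp
    rw [h2, one_mul]
    calc _ ≤ ‖(s - t) * u‖ := Real.norm_exp_I_mul_ofReal_sub_one_le
      _ = |s - t| * |u| := by rw [Real.norm_eq_abs, abs_mul]
      _ ≤ |s - t| * R := mul_le_mul_of_nonneg_left hu (abs_nonneg _)

theorem continuous_character_mul (p : BoundedContinuousFunction ℝ ℂ) (R : ℝ) (hR : 0 < R)
    (hp : ∀ u, R < |u| → p u = 0) : Continuous fun t : ℝ => character t * p := by
  have : LipschitzWith (Real.toNNReal (R * ‖p‖)) fun t : ℝ => character t * p := by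
    refine LipschitzWith.of_dist_le_mul fun s t => ?_
    rw [dist_eq_norm, Real.coe_toNNReal _ (by positivity), Real.dist_eq]
    refine (character_mul_lipschitz p R hR hp s t).trans (le_of_eq ?_)
    ring
  exact this.continuous

/-- strong continuity of the unitary group -/
theorem continuous_wave (D : LineCalculus H) (x : H) : Continuous fun t : ℝ => D.wave t x := by
  -- uniform limit of continuous functions
  rw [Metric.continuous_iff]
  intro t ε hε
  obtain ⟨p, R, hR, hp, hx⟩ := window_dense D x (ε / 4) (by positivity)
  have hc : Continuous fun t : ℝ => D.apply (character t * p) x := by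
    have hev : Continuous fun f : BoundedContinuousFunction ℝ ℂ => D.apply f x := by
      have h1 : Continuous (D.apply : BoundedContinuousFunction ℝ ℂ → (H →L[ℂ] H)) := by
        refine LipschitzWith.continuous (K := 1) (LipschitzWith.of_dist_le_mul fun f g => ?_)
        rw [dist_eq_norm, dist_eq_norm, ← map_sub, NNReal.coe_one, one_mul]
        exact apply_norm_le D _
      exact (ContinuousLinearMap.apply ℂ H x).continuous.comp h1
    exact hev.comp (continuous_character_mul p R hR hp)
  obtain ⟨δ, hδ, h⟩ := Metric.continuous_iff.1 hc t (ε / 4) (by positivity)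
  refine ⟨δ, hδ, fun s hs => ?_⟩
  have h1 := h s hs
  have key : ∀ r, ‖D.wave r x - D.apply (character r * p) x‖ < ε / 4 := by
    intro r
    have : D.apply (character r * p) x = D.wave r (D.apply p x) := apply_mul_apply D _ _ _
    rw [this, ← map_sub, norm_wave, norm_sub_rev]
    exact hx
  have e1 := key s
  have e2 := key t
  rw [dist_eq_norm] at h1 ⊢
  have : D.wave s x - D.wave t x = (D.wave s x - D.apply (character s * p) x)
      + (D.apply (character s * p) x - D.apply (character t * p) x)
      - (D.wave t x - D.apply (character t * p) x) := by abel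
  rw [this]
  have h3 := norm_sub_le ((D.wave s x - D.apply (character s * p) x)
      + (D.apply (character s * p) x - D.apply (character t * p) x))
      (D.wave t x - D.apply (character t * p) x)
  have h4 := norm_add_le (D.wave s x - D.apply (character s * p) x)
      (D.apply (character s * p) x - D.apply (character t * p) x)
  linarith

end Crest.Agent.Helper7
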