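import Crest.Agent.Helper7.LineCalc

set_option autoImplicit false

open Filter MeasureTheory Topology
open scoped InnerProductSpace BoundedContinuousFunction

namespace Crest.Agent.Helper7

open Crest.OpAlg Crest.OpAlg.LineCalculus

variable {H : Type*} [NormedAddCommGroup H] [InnerProductSpace ℂ H] [CompleteSpace H]

theorem apply_comm (D : LineCalculus H) (f g : BoundedContinuousFunction ℝ ℂ) (x : H) :
    D.apply f (D.apply g x) = D.apply g (D.apply f x) := by
  rw [← apply_mul_apply, ← apply_mul_apply, mul_comm]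

theorem SupportedIn.add {D : LineCalculus H} {K : Set ℝ} {x y : H} (hx : D.SupportedIn K x)
    (hy : D.SupportedIn K y) : D.SupportedIn K (x + y) := fun f hf => by
  rw [map_add, hx f hf, hy f hf, add_zero]

theorem SupportedIn.smul {D : LineCalculus H} {K : Set ℝ} {x : H} (c : ℂ)
    (hx : D.SupportedIn K x) : D.SupportedIn K (c • x) := fun f hf => by
  rw [map_smul, hx f hf, smul_zero]

theorem SupportedIn.neg {D : LineCalculus H} {K : Set ℝ} {x : H}
    (hx : D.SupportedIn K x) : D.SupportedIn K (-x) := fun f hf => by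
  rw [map_neg, hx f hf, neg_zero]

theorem SupportedIn.apply {D : LineCalculus H} {K : Set ℝ} {x : H}
    (g : BoundedContinuousFunction ℝ ℂ)
    (hx : D.SupportedIn K x) : D.SupportedIn K (D.apply g x) := fun f hf => by
  rw [apply_comm, hx f hf, map_zero]

theorem SupportedIn.wave {D : LineCalculus H} {K : Set ℝ} {x : H} (t : ℝ)
    (hx : D.SupportedIn K x) : D.SupportedIn K (D.wave t x) := SupportedIn.apply _ hx

theorem SupportedIn.mono {D : LineCalculus H} {K L : Set ℝ} (h : K ⊆ L) {x : H}
    (hx : D.SupportedIn K x) : D.SupportedIn L x := fun f hf => hx f fun u hu => hf u (h hu)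

theorem apply_eq_of_supportedIn {D : LineCalculus H} {K : Set ℝ} {x : H}
    (hx : D.SupportedIn K x) {f g : BoundedContinuousFunction ℝ ℂ} (h : ∀ u ∈ K, f u = g u) :
    D.apply f x = D.apply g x := by
  have := hx (f - g) fun u hu => by simp [h u hu]
  rw [map_sub] at this
  exact sub_eq_zero.1 this

theorem supportedIn_apply {D : LineCalculus H} {K : Set ℝ} (x : H)
    {F : BoundedContinuousFunction ℝ ℂ} (hF : ∀ u, u ∉ K → F u = 0) :
    D.SupportedIn K (D.apply F x) := fun f hf => by
  rw [← apply_mul_apply]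
  have : f * F = 0 := by
    ext u
    by_cases hu : u ∈ K
    · simp [hf u hu]
    · simp [hF u hu]
  rw [this, map_zero]; rfl

/-- a vector killed by all compactly supported functions of `D` is zero. -/
theorem eq_zero_of_apply (D : LineCalculus H) (x : H)
    (h : ∀ (f : BoundedContinuousFunction ℝ ℂ), HasCompactSupport (f : ℝ → ℂ) → D.apply f x = 0) :
    x = 0 := by
  by_contra hne
  have hpos : 0 < ‖x‖ := norm_pos_iff.2 hne
  obtain ⟨f, hf, hx⟩ := D.window x ‖x‖ hpos
  rw [h f hf] at hx
  simp at hx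

/-- the capped half exponential `u ↦ exp (min u b / 2)` as a bounded continuous function -/
noncomputable def capExp (b : ℝ) : BoundedContinuousFunction ℝ ℂ :=
  BoundedContinuousFunction.ofNormedAddCommGroup
    (fun u : ℝ => ((Real.exp (min u b / 2) : ℝ) : ℂ)) (by fun_prop) (Real.exp (b / 2))
    (fun u => by
      rw [Complex.norm_real, Real.norm_eq_abs, abs_of_pos (Real.exp_pos _)]
      exact Real.exp_le_exp.2 (by have := min_le_right u b; linarith))

theorem capExp_apply (b u : ℝ) : capExp b u = ((Real.exp (min u b / 2) : ℝ) : ℂ) := rfl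

theorem capExp_norm_le (b : ℝ) : ‖capExp b‖ ≤ Real.exp (b / 2) :=
  BoundedContinuousFunction.norm_ofNormedAddCommGroup_le _ (Real.exp_pos _).le _

/-- if `y = exp(D/2) x` with `x` supported in `(-∞, b]`, then `‖y‖ ≤ exp(b/2) ‖x‖`. -/
theorem halfExp_norm_le (D : LineCalculus H) {x y : H} (h : D.HalfExp x y) {K : Set ℝ} {b : ℝ}
    (hx : D.SupportedIn K x) (hK : ∀ u ∈ K, u ≤ b) : ‖y‖ ≤ Real.exp (b / 2) * ‖x‖ := by
  have hy : y = D.apply (capExp b) x := by
    rw [← sub_eq_zero]
    refine eq_zero_of_apply D _ fun f hf => ?_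
    -- g = f * exp(u/2), bounded as f has compact support
    have hcont : Continuous fun u : ℝ => f u * ((Real.exp (u / 2) : ℝ) : ℂ) := by fun_prop
    have hcs : HasCompactSupport fun u : ℝ => f u * ((Real.exp (u / 2) : ℝ) : ℂ) := hf.mul_right
    obtain ⟨C, hC⟩ := hcs.exists_bound_of_continuous hcont
    let g : BoundedContinuousFunction ℝ ℂ :=
      BoundedContinuousFunction.ofNormedAddCommGroup _ hcont C hC
    have hg : ∀ u, g u = f u * ((Real.exp (u / 2) : ℝ) : ℂ) := fun u => rfl
    have h1 := h f g hg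
    rw [map_sub, h1, ← apply_mul_apply, sub_eq_zero]
    refine apply_eq_of_supportedIn hx fun u hu => ?_
    rw [hg, BoundedContinuousFunction.coe_mul, Pi.mul_apply, capExp_apply, min_eq_left (hK u hu)]
  rw [hy]
  exact (apply_apply_norm_le D _ _).trans
    (mul_le_mul_of_nonneg_right (capExp_norm_le b) (norm_nonneg _))

/-! ### Modular data -/

/-- bound on the adjoint of an element whose vector has bounded spectral support -/
theorem star_vac_norm_le (S : ModularDatum H) {a : H →L[ℂ] H} (ha : a ∈ S.M) {K : Set ℝ} {b : ℝ}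
    (hx : S.D.SupportedIn K (a S.vac)) (hK : ∀ u ∈ K, u ≤ b) :
    ‖star a S.vac‖ ≤ Real.exp (b / 2) * ‖a S.vac‖ := by
  have hmem : ((a S.vac, star a S.vac) : H × H) ∈ {p : H × H | S.D.HalfExp p.1 (S.J p.2)} := by
    rw [← S.tomita]
    exact subset_closure ⟨⟨a, ha⟩, rfl⟩
  have h : S.D.HalfExp (a S.vac) (S.J (star a S.vac)) := hmem
  have := halfExp_norm_le S.D h hx hK
  rwa [LinearIsometryEquiv.norm_map] at this

/-- pairing relation of the Tomita graph with the vacuum -/
theorem tomita_pairing (S : ModularDatum H) {x y : H} (h : S.D.HalfExp x (S.J y)) :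
    ⟪y, S.vac⟫_ℂ = ⟪S.vac, x⟫_ℂ := by
  have hmem : ((x, y) : H × H) ∈ closure (Set.range fun a : S.M =>
      ((a : H →L[ℂ] H) S.vac, star (a : H →L[ℂ] H) S.vac)) := by
    rw [S.tomita]; exact h
  have hclosed : IsClosed {p : H × H | ⟪p.2, S.vac⟫_ℂ = ⟪S.vac, p.1⟫_ℂ} := by
    refine isClosed_eq ?_ ?_
    · exact (Continuous.inner continuous_snd continuous_const)
    · exact (Continuous.inner continuous_const continuous_fst)
  have hsub : (Set.range fun a : S.M =>
      ((a : H →L[ℂ] H) S.vac, star (a : H →L[ℂ] H) S.vac)) ⊆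
      {p : H × H | ⟪p.2, S.vac⟫_ℂ = ⟪S.vac, p.1⟫_ℂ} := by
    rintro _ ⟨a, rfl⟩
    simp only [Set.mem_ofPred_eq]
    rw [ContinuousLinearMap.star_eq_adjoint, ContinuousLinearMap.adjoint_inner_left]
  exact closure_minimal hsub hclosed hmem

end Crest.Agent.Helper7
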