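import Mathlib

/-! Prekopa-Leindler inequality on `Fin n → ℝ` (helper22 for helper7). -/

set_option autoImplicit false

open MeasureTheory Set
open scoped ENNReal NNReal Pointwise

namespace Crest.Agent.Helper7

namespace PL

/-- Brunn–Minkowski in dimension one, compact case. -/
theorem bm_compact {A B : Set ℝ} (hA : IsCompact A) (hB : IsCompact B)
    (hAn : A.Nonempty) (hBn : B.Nonempty) :
    volume A + volume B ≤ volume (A + B) := by
  obtain ⟨a, haA, ha⟩ := hA.exists_isGreatest hAn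
  obtain ⟨b, hbB, hb⟩ := hB.exists_isLeast hBn
  have h1 : (fun x => x + b) '' A ⊆ A + B := by
    rintro _ ⟨x, hx, rfl⟩
    exact Set.add_mem_add hx hbB
  have h2 : (fun x => a + x) '' (B \ {b}) ⊆ A + B := by
    rintro _ ⟨x, hx, rfl⟩
    exact Set.add_mem_add haA hx.1
  have hdisj : Disjoint ((fun x => x + b) '' A) ((fun x => a + x) '' (B \ {b})) := by
    rw [Set.disjoint_left]
    rintro _ ⟨x, hx, rfl⟩ ⟨y, hy, hxy⟩
    have hx' : x ≤ a := ha hx
    have hy' : b ≤ y := hb hy.1
    have hyb : y ≠ b := fun h => hy.2 h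
    have : b < y := lt_of_le_of_ne hy' (Ne.symm hyb)
    simp only at hxy
    linarith
  have hBm : MeasurableSet (B \ {b}) := hB.measurableSet.diff (measurableSet_singleton b)
  have hm2 : MeasurableSet ((fun x => a + x) '' (B \ {b})) := by
    have : (fun x : ℝ => a + x) = (MeasurableEquiv.addLeft a) := rfl
    rw [this]
    exact (MeasurableEquiv.addLeft a).measurableSet_image.2 hBm
  have hv1 : volume ((fun x => x + b) '' A) = volume A := by
    rw [Set.image_add_right]
    exact measure_preimage_add_right volume (-b) A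
  have hv2 : volume ((fun x => a + x) '' (B \ {b})) = volume B := by
    rw [Set.image_add_left, measure_preimage_add]
    exact measure_sdiff_null (by simp)
  calc volume A + volume B = volume ((fun x => x + b) '' A) + volume ((fun x => a + x) '' (B \ {b})) := by
        rw [hv1, hv2]
    _ = volume ((fun x => x + b) '' A ∪ (fun x => a + x) '' (B \ {b})) := by
        rw [measure_union hdisj hm2]
    _ ≤ volume (A + B) := measure_mono (Set.union_subset h1 h2)

/-- Brunn–Minkowski in dimension one for measurable sets, convex combination form. -/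
theorem bm_measurable {s : ℝ} (hs0 : 0 < s) (hs1 : s < 1) {A B C : Set ℝ}
    (hA : MeasurableSet A) (hB : MeasurableSet B) (hAn : A.Nonempty) (hBn : B.Nonempty)
    (H : ∀ x ∈ A, ∀ y ∈ B, (1 - s) * x + s * y ∈ C) :
    ENNReal.ofReal (1 - s) * volume A + ENNReal.ofReal s * volume B ≤ volume C := by
  have key : ∀ K L : Set ℝ, IsCompact K → IsCompact L → K ⊆ A → L ⊆ B → K.Nonempty → L.Nonempty →
      ENNReal.ofReal (1 - s) * volume K + ENNReal.ofReal s * volume L ≤ volume C := by
    intro K L hK hL hKA hLB hKn hLn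
    have h := bm_compact (hK.smul (1 - s)) (hL.smul s) (hKn.smul_set) (hLn.smul_set)
    have e1 : volume ((1 - s) • K) = ENNReal.ofReal (1 - s) * volume K := by
      rw [Measure.addHaar_smul]
      simp [abs_of_pos (sub_pos.2 hs1)]
    have e2 : volume (s • L) = ENNReal.ofReal s * volume L := by
      rw [Measure.addHaar_smul]
      simp [abs_of_pos hs0]
    rw [e1, e2] at h
    refine h.trans (measure_mono ?_)
    rintro _ ⟨_, ⟨x, hx, rfl⟩, _, ⟨y, hy, rfl⟩, rfl⟩
    exact H x (hKA hx) y (hLB hy)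
  -- approximations
  have approx : ∀ (D : Set ℝ), MeasurableSet D → D.Nonempty →
      volume D = ⨆ K : {K : Set ℝ // IsCompact K ∧ K ⊆ D ∧ K.Nonempty}, volume K.1 := by
    intro D hD hDn
    apply le_antisymm
    · apply le_of_forall_lt
      intro r hr
      obtain ⟨K, hKD, hK, hrK⟩ := hD.exists_lt_isCompact hr
      have hKn : K.Nonempty := by
        rw [Set.nonempty_iff_ne_empty]
        rintro rfl
        simp at hrK
      exact lt_of_lt_of_le hrK (le_iSup (fun K : {K : Set ℝ // IsCompact K ∧ K ⊆ D ∧ K.Nonempty} => volume K.1)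
        ⟨K, hK, hKD, hKn⟩)
    · exact iSup_le fun K => measure_mono K.2.2.1
  have neA : Nonempty {K : Set ℝ // IsCompact K ∧ K ⊆ A ∧ K.Nonempty} := by
    obtain ⟨x, hx⟩ := hAn
    exact ⟨⟨{x}, isCompact_singleton, Set.singleton_subset_iff.2 hx, Set.singleton_nonempty x⟩⟩
  have neB : Nonempty {K : Set ℝ // IsCompact K ∧ K ⊆ B ∧ K.Nonempty} := by
    obtain ⟨x, hx⟩ := hBn
    exact ⟨⟨{x}, isCompact_singleton, Set.singleton_subset_iff.2 hx, Set.singleton_nonempty x⟩⟩
  rw [approx A hA hAn, approx B hB hBn, ENNReal.mul_iSup, ENNReal.mul_iSup, ENNReal.iSup_add]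
  refine iSup_le fun K => ?_
  rw [ENNReal.add_iSup]
  refine iSup_le fun L => ?_
  exact key K.1 L.1 K.2.1 L.2.1 K.2.2.1 L.2.2.1 K.2.2.2 L.2.2.2

theorem layer1 (F : ℝ → ℝ≥0∞) (hF : Measurable F) (hF1 : ∀ x, F x ≤ 1) :
    ∫⁻ x, F x = ∫⁻ t in Ioo (0:ℝ) 1, volume {x | ENNReal.ofReal t < F x} := by
  have hfin : ∀ x, F x ≠ ∞ := fun x => ((hF1 x).trans_lt ENNReal.one_lt_top).ne
  have h1 : ∫⁻ x, F x = ∫⁻ x, ENNReal.ofReal ((F x).toReal) := by
    refine lintegral_congr fun x => ?_
    rw [ENNReal.ofReal_toReal (hfin x)]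
  rw [h1, lintegral_eq_lintegral_meas_lt volume
    (Filter.Eventually.of_forall fun x => ENNReal.toReal_nonneg) hF.ennreal_toReal.aemeasurable]
  rw [← lintegral_indicator measurableSet_Ioi, ← lintegral_indicator measurableSet_Ioo]
  refine lintegral_congr fun t => ?_
  by_cases ht0 : 0 < t
  · by_cases ht1 : t < 1
    · rw [Set.indicator_of_mem (by exact ht0), Set.indicator_of_mem (show t ∈ Ioo (0:ℝ) 1 from ⟨ht0, ht1⟩)]
      congr 1
      ext x
      simp only [mem_ofPred_eq]
      exact (ENNReal.ofReal_lt_iff_lt_toReal ht0.le (hfin x)).symm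
    · rw [Set.indicator_of_mem (by exact ht0), Set.indicator_of_notMem (fun h => ht1 h.2)]
      have : {a | t < (F a).toReal} = ∅ := by
        ext x
        simp only [mem_ofPred_eq, mem_empty_iff_false, iff_false, not_lt]
        have : (F x).toReal ≤ 1 := by
          have := ENNReal.toReal_mono ENNReal.one_ne_top (hF1 x)
          simpa using this
        linarith [not_lt.1 ht1]
      rw [this]; simp
  · rw [Set.indicator_of_notMem (by simpa using ht0), Set.indicator_of_notMem (fun h => ht0 h.1)]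

theorem amgm {s : ℝ} (hs0 : 0 < s) (hs1 : s < 1) (a b : ℝ≥0∞) :
    a ^ (1 - s) * b ^ s ≤ ENNReal.ofReal (1 - s) * a + ENNReal.ofReal s * b := by
  have hs1' : 0 < 1 - s := sub_pos.2 hs1
  have h1 : ENNReal.ofReal (1 - s) ≠ 0 := by simpa using hs1
  have h2 : ENNReal.ofReal s ≠ 0 := by simpa using hs0
  rcases eq_or_ne a ∞ with rfl | ha
  · rw [ENNReal.mul_top h1]; simp
  rcases eq_or_ne b ∞ with rfl | hb
  · rw [ENNReal.mul_top h2]; simp
  lift a to ℝ≥0 using ha
  lift b to ℝ≥0 using hb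
  rw [← ENNReal.coe_rpow_of_nonneg _ hs1'.le, ← ENNReal.coe_rpow_of_nonneg _ hs0.le]
  have := NNReal.geom_mean_le_arith_mean2_weighted (Real.toNNReal (1 - s)) (Real.toNNReal s) a b
    (by rw [← Real.toNNReal_add hs1'.le hs0.le]; simp)
  rw [Real.coe_toNNReal _ hs1'.le, Real.coe_toNNReal _ hs0.le] at this
  unfold ENNReal.ofReal
  exact_mod_cast this

theorem normalized {s : ℝ} (hs0 : 0 < s) (hs1 : s < 1) {F G H : ℝ → ℝ≥0∞}
    (hF : Measurable F) (hG : Measurable G) (hH : Measurable H)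
    (hF1 : ∀ x, F x ≤ 1) (hG1 : ∀ x, G x ≤ 1)
    (hFs : ∀ t < 1, ∃ x, t < F x) (hGs : ∀ t < 1, ∃ x, t < G x)
    (h : ∀ x y, F x ^ (1 - s) * G y ^ s ≤ H ((1 - s) * x + s * y)) :
    ENNReal.ofReal (1 - s) * (∫⁻ x, F x) + ENNReal.ofReal s * (∫⁻ x, G x) ≤ ∫⁻ x, H x := by
  have hs1' : 0 < 1 - s := sub_pos.2 hs1
  have hmin : ∫⁻ x, min (H x) 1 ≤ ∫⁻ x, H x := lintegral_mono fun x => min_le_left _ _
  refine le_trans ?_ hmin
  rw [layer1 F hF hF1, layer1 G hG hG1, layer1 (fun x => min (H x) 1) (hH.min measurable_const)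
    (fun x => min_le_right _ _)]
  have hmF : Measurable fun t : ℝ => volume {x | ENNReal.ofReal t < F x} := by
    apply Antitone.measurable
    intro t u htu
    apply measure_mono
    intro x hx
    exact lt_of_le_of_lt (ENNReal.ofReal_le_ofReal htu) hx
  rw [← lintegral_const_mul' _ _ ENNReal.ofReal_ne_top, ← lintegral_const_mul' _ _ ENNReal.ofReal_ne_top,
    ← lintegral_add_left (hmF.const_mul _)]
  refine lintegral_mono_ae ?_
  filter_upwards [ae_restrict_mem measurableSet_Ioo] with t ht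
  have ht1 : ENNReal.ofReal t < 1 := by
    rw [← ENNReal.ofReal_one]
    exact (ENNReal.ofReal_lt_ofReal_iff one_pos).2 ht.2
  refine bm_measurable hs0 hs1 (measurableSet_lt measurable_const hF)
    (measurableSet_lt measurable_const hG) (hFs _ ht1) (hGs _ ht1) ?_
  intro x hx y hy
  simp only [mem_ofPred_eq] at hx hy ⊢
  have e : ENNReal.ofReal t = ENNReal.ofReal t ^ (1 - s) * ENNReal.ofReal t ^ s := by
    rw [← ENNReal.rpow_add_of_nonneg _ _ hs1'.le hs0.le]
    simp
  have hlt : ENNReal.ofReal t < F x ^ (1 - s) * G y ^ s := by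
    calc ENNReal.ofReal t = ENNReal.ofReal t ^ (1 - s) * ENNReal.ofReal t ^ s := e
      _ < F x ^ (1 - s) * G y ^ s :=
        ENNReal.mul_lt_mul (ENNReal.rpow_lt_rpow hx hs1') (ENNReal.rpow_lt_rpow hy hs0)
  exact lt_min (hlt.trans_le (h x y)) ht1

/-- One-dimensional case, bounded functions. -/
theorem one_dim_bdd {s : ℝ} (hs0 : 0 < s) (hs1 : s < 1) {f g h : ℝ → ℝ≥0∞} {N : ℝ≥0∞} (hN : N ≠ ∞)
    (hf : Measurable f) (hg : Measurable g) (hh : Measurable h)
    (hfN : ∀ x, f x ≤ N) (hgN : ∀ x, g x ≤ N)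
    (H : ∀ x y, f x ^ (1 - s) * g y ^ s ≤ h ((1 - s) * x + s * y)) :
    (∫⁻ x, f x) ^ (1 - s) * (∫⁻ x, g x) ^ s ≤ ∫⁻ x, h x := by
  have hs1' : 0 < 1 - s := sub_pos.2 hs1
  set a : ℝ≥0∞ := ⨆ x, f x with ha
  set b : ℝ≥0∞ := ⨆ x, g x with hb
  rcases eq_or_ne a 0 with ha0 | ha0
  · have : ∀ x, f x = 0 := fun x => by
      have := le_iSup f x
      rw [← ha, ha0] at this
      exact le_antisymm this bot_le
    simp [this, ENNReal.zero_rpow_of_pos hs1']
  rcases eq_or_ne b 0 with hb0 | hb0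
  · have : ∀ x, g x = 0 := fun x => by
      have := le_iSup g x
      rw [← hb, hb0] at this
      exact le_antisymm this bot_le
    simp [this, ENNReal.zero_rpow_of_pos hs0]
  have haT : a ≠ ∞ := ((iSup_le hfN).trans_lt (lt_top_iff_ne_top.2 hN)).ne
  have hbT : b ≠ ∞ := ((iSup_le hgN).trans_lt (lt_top_iff_ne_top.2 hN)).ne
  set c : ℝ≥0∞ := a ^ (1 - s) * b ^ s with hc
  have hapow0 : a ^ (1 - s) ≠ 0 := by
    simp [ENNReal.rpow_eq_zero_iff, ha0, haT]
  have hbpow0 : b ^ s ≠ 0 := by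
    simp [ENNReal.rpow_eq_zero_iff, hb0, hbT]
  have hapowT : a ^ (1 - s) ≠ ∞ := ENNReal.rpow_ne_top_of_nonneg hs1'.le haT
  have hbpowT : b ^ s ≠ ∞ := ENNReal.rpow_ne_top_of_nonneg hs0.le hbT
  have hc0 : c ≠ 0 := mul_ne_zero hapow0 hbpow0
  have hcT : c ≠ ∞ := ENNReal.mul_ne_top hapowT hbpowT
  have key := normalized hs0 hs1 (F := fun x => a⁻¹ * f x) (G := fun x => b⁻¹ * g x)
    (H := fun x => c⁻¹ * h x) (hf.const_mul _) (hg.const_mul _) (hh.const_mul _)
    (fun x => by
      calc a⁻¹ * f x ≤ a⁻¹ * a := by gcongr; exact le_iSup f x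
        _ = 1 := ENNReal.inv_mul_cancel ha0 haT)
    (fun x => by
      calc b⁻¹ * g x ≤ b⁻¹ * b := by gcongr; exact le_iSup g x
        _ = 1 := ENNReal.inv_mul_cancel hb0 hbT)
    (fun t ht => by
      have : a * t < a := by
        calc a * t < a * 1 := ENNReal.mul_lt_mul_right ha0 haT ht
          _ = a := mul_one a
      obtain ⟨x, hx⟩ := lt_iSup_iff.1 (ha ▸ this : a * t < ⨆ x, f x)
      refine ⟨x, ?_⟩
      calc t = a⁻¹ * (a * t) := by rw [← mul_assoc, ENNReal.inv_mul_cancel ha0 haT, one_mul]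
        _ < a⁻¹ * f x := ENNReal.mul_lt_mul_right (by simpa using haT) (by simpa using ha0) hx)
    (fun t ht => by
      have : b * t < b := by
        calc b * t < b * 1 := ENNReal.mul_lt_mul_right hb0 hbT ht
          _ = b := mul_one b
      obtain ⟨x, hx⟩ := lt_iSup_iff.1 (hb ▸ this : b * t < ⨆ x, g x)
      refine ⟨x, ?_⟩
      calc t = b⁻¹ * (b * t) := by rw [← mul_assoc, ENNReal.inv_mul_cancel hb0 hbT, one_mul]
        _ < b⁻¹ * g x := ENNReal.mul_lt_mul_right (by simpa using hbT) (by simpa using hb0) hx)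
    (fun x y => by
      have e : (a⁻¹ * f x) ^ (1 - s) * (b⁻¹ * g y) ^ s = c⁻¹ * (f x ^ (1 - s) * g y ^ s) := by
        rw [ENNReal.mul_rpow_of_nonneg _ _ hs1'.le, ENNReal.mul_rpow_of_nonneg _ _ hs0.le,
          ENNReal.inv_rpow, ENNReal.inv_rpow, hc, ENNReal.mul_inv (Or.inl hapow0) (Or.inl hapowT)]
        ring
      rw [e]
      gcongr
      exact H x y)
  rw [lintegral_const_mul _ hf, lintegral_const_mul _ hg, lintegral_const_mul _ hh] at key
  have key2 := (amgm hs0 hs1 (a⁻¹ * ∫⁻ x, f x) (b⁻¹ * ∫⁻ x, g x)).trans key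
  have e : (a⁻¹ * ∫⁻ x, f x) ^ (1 - s) * (b⁻¹ * ∫⁻ x, g x) ^ s
      = c⁻¹ * ((∫⁻ x, f x) ^ (1 - s) * (∫⁻ x, g x) ^ s) := by
    rw [ENNReal.mul_rpow_of_nonneg _ _ hs1'.le, ENNReal.mul_rpow_of_nonneg _ _ hs0.le,
      ENNReal.inv_rpow, ENNReal.inv_rpow, hc, ENNReal.mul_inv (Or.inl hapow0) (Or.inl hapowT)]
    ring
  rw [e] at key2
  exact (ENNReal.mul_le_mul_iff_right (by simpa using hcT) (by simpa using hc0)).1 key2

/-- One-dimensional case. -/
theorem one_dim {s : ℝ} (hs0 : 0 < s) (hs1 : s < 1) {f g h : ℝ → ℝ≥0∞}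
    (hf : Measurable f) (hg : Measurable g) (hh : Measurable h)
    (H : ∀ x y, f x ^ (1 - s) * g y ^ s ≤ h ((1 - s) * x + s * y)) :
    (∫⁻ x, f x) ^ (1 - s) * (∫⁻ x, g x) ^ s ≤ ∫⁻ x, h x := by
  have hs1' : 0 < 1 - s := sub_pos.2 hs1
  have trunc : ∀ u : ℝ → ℝ≥0∞, Measurable u →
      Filter.Tendsto (fun n : ℕ => ∫⁻ x, min (u x) n) Filter.atTop (nhds (∫⁻ x, u x)) := by
    intro u hu
    refine lintegral_tendsto_of_tendsto_of_monotone
      (fun n => (hu.min measurable_const).aemeasurable) ?_ ?_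
    · refine Filter.Eventually.of_forall fun x m n hmn => ?_
      exact min_le_min le_rfl (by exact_mod_cast hmn)
    · refine Filter.Eventually.of_forall fun x => ?_
      have : Filter.Tendsto (fun n : ℕ => min (u x) (n : ℝ≥0∞)) Filter.atTop (nhds (min (u x) ∞)) :=
        tendsto_const_nhds.min ENNReal.tendsto_nat_nhds_top
      simpa using this
  rcases eq_or_ne (∫⁻ x, f x) 0 with hf0 | hf0
  · rw [hf0, ENNReal.zero_rpow_of_pos hs1']; simp
  rcases eq_or_ne (∫⁻ x, g x) 0 with hg0 | hg0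
  · rw [hg0, ENNReal.zero_rpow_of_pos hs0]; simp
  have hb : ∀ n : ℕ, (∫⁻ x, min (f x) n) ^ (1 - s) * (∫⁻ x, min (g x) n) ^ s ≤ ∫⁻ x, h x := by
    intro n
    refine one_dim_bdd hs0 hs1 (N := (n : ℝ≥0∞)) (ENNReal.natCast_ne_top n)
      (hf.min measurable_const) (hg.min measurable_const) hh
      (fun x => min_le_right _ _) (fun x => min_le_right _ _) ?_
    intro x y
    refine le_trans ?_ (H x y)
    gcongr
    · exact min_le_left _ _
    · exact min_le_left _ _
  refine le_of_tendsto' (ENNReal.Tendsto.mul ((trunc f hf).ennrpow_const (1 - s)) ?_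
    ((trunc g hg).ennrpow_const s) ?_) hb
  · left
    intro h0
    rw [ENNReal.rpow_eq_zero_iff] at h0
    rcases h0 with h0 | h0
    · exact hf0 h0.1
    · linarith [h0.2]
  · left
    intro h0
    rw [ENNReal.rpow_eq_zero_iff] at h0
    rcases h0 with h0 | h0
    · exact hg0 h0.1
    · linarith [h0.2]

end PL

theorem prekopa_leindler (n : ℕ) {s : ℝ} (hs0 : 0 < s) (hs1 : s < 1)
    {f g h : (Fin n → ℝ) → ENNReal} (hf : Measurable f) (hg : Measurable g) (hh : Measurable h)
    (H : ∀ x y, f x ^ (1-s) * g y ^ s ≤ h ((1-s) • x + s • y)) :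
    (∫⁻ x, f x) ^ (1-s) * (∫⁻ x, g x) ^ s ≤ ∫⁻ x, h x := by
  induction n with
  | zero =>
    have e : ∀ u : (Fin 0 → ℝ) → ENNReal, ∫⁻ x, u x = u default := by
      intro u
      rw [volume_pi, Measure.pi_of_empty, lintegral_dirac]
      congr 1
      exact Subsingleton.elim _ _
    rw [e, e, e]
    have := H default default
    have e2 : ((1-s) • (default : Fin 0 → ℝ) + s • (default : Fin 0 → ℝ)) = default :=
      Subsingleton.elim _ _
    rwa [e2] at this
  | succ n ih =>
    have econs : ∀ (x : ℝ) (y : Fin n → ℝ),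
        (MeasurableEquiv.piFinSuccAbove (fun _ : Fin (n + 1) => ℝ) 0).symm (x, y) = Fin.cons x y := by
      intro x y
      simp [MeasurableEquiv.piFinSuccAbove_symm_apply, Fin.insertNthEquiv, Fin.insertNth_zero']
    have key : ∀ u : (Fin (n+1) → ℝ) → ENNReal, Measurable u →
        ∫⁻ x, u x = ∫⁻ x : ℝ, ∫⁻ y : Fin n → ℝ, u (Fin.cons x y) := by
      intro u hu
      have hmp := (volume_preserving_piFinSuccAbove (fun _ : Fin (n + 1) => ℝ) 0).symm
      rw [← hmp.lintegral_comp_emb (MeasurableEquiv.measurableEmbedding _) u]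
      rw [Measure.volume_eq_prod, lintegral_prod _ (by
        apply Measurable.aemeasurable
        exact hu.comp (MeasurableEquiv.measurable _))]
      refine lintegral_congr fun x => lintegral_congr fun y => ?_
      rw [econs x y]
    have mcons : Measurable fun p : ℝ × (Fin n → ℝ) => (Fin.cons p.1 p.2 : Fin (n+1) → ℝ) := by
      have := (MeasurableEquiv.piFinSuccAbove (fun _ : Fin (n + 1) => ℝ) 0).symm.measurable
      convert this using 1
      ext1 p
      exact (econs p.1 p.2).symm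
    rw [key f hf, key g hg, key h hh]
    refine PL.one_dim hs0 hs1 ?_ ?_ ?_ ?_
    · exact (hf.comp mcons).lintegral_prod_right'
    · exact (hg.comp mcons).lintegral_prod_right'
    · exact (hh.comp mcons).lintegral_prod_right'
    · intro x y
      refine ih ?_ ?_ ?_ ?_
      · exact (hf.comp mcons).comp measurable_prodMk_left
      · exact (hg.comp mcons).comp measurable_prodMk_left
      · exact (hh.comp mcons).comp measurable_prodMk_left
      · intro x' y'
        have := H (Fin.cons x x') (Fin.cons y y')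
        have e : ((1-s) • (Fin.cons x x' : Fin (n+1) → ℝ) + s • (Fin.cons y y' : Fin (n+1) → ℝ))
            = Fin.cons ((1-s) * x + s * y) ((1-s) • x' + s • y') := by
          ext i
          refine Fin.cases ?_ (fun j => ?_) i
          · simp
          · simp
        rwa [e] at this

end Crest.Agent.Helper7
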