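import Crest.Agent.Helper7.Smooth

set_option autoImplicit false

open Filter MeasureTheory Topology
open scoped InnerProductSpace BoundedContinuousFunction FourierTransform

namespace Crest.Agent.Helper7

open Crest.OpAlg Crest.OpAlg.LineCalculus

variable {H : Type*} [NormedAddCommGroup H] [InnerProductSpace ℂ H] [CompleteSpace H]

/-- truncation of an element of `M` -/
theorem exists_truncation (S : ModularDatum H) {G : H →L[ℂ] H} (hG : G ∈ S.M) {ν : ℝ}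
    (hν : 0 < ν) : ∃ v ∈ S.M, ‖v‖ ≤ 1 / ν ∧ ∀ x : H, ‖G x - v x‖ ≤ ν * ‖(star G * G) x‖ := by
  set μ : ℝ := ν ^ 2 with hμ
  have hμ0 : 0 < μ := by positivity
  set A := star G * G with hA
  have hnot : (-(1 / μ)) ∉ spectrum ℝ A := by
    intro h
    have := spectrum_star_mul_self_nonneg _ h
    have h2 : 0 < 1 / μ := by positivity
    linarith
  rw [spectrum.notMem_iff] at hnot
  obtain ⟨u, hu⟩ := hnot
  have hux : ∀ x, (u : H →L[ℂ] H) x = -((1 / μ : ℝ) : ℂ) • x - A x := by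
    intro x
    rw [hu, sub_apply, Algebra.algebraMap_eq_smul_one, ← Complex.ofReal_neg,
      ← Complex.coe_smul]
    rfl
  set r : H →L[ℂ] H := (-((1 / μ : ℝ) : ℂ)) • ((u⁻¹ : (H →L[ℂ] H)ˣ) : H →L[ℂ] H) with hr
  have hinv1 : ∀ x, (u : H →L[ℂ] H) (((u⁻¹ : (H →L[ℂ] H)ˣ) : H →L[ℂ] H) x) = x := fun x =>
    congrArg (fun B : H →L[ℂ] H => B x) (Units.mul_inv u)
  have hinv2 : ∀ x, ((u⁻¹ : (H →L[ℂ] H)ˣ) : H →L[ℂ] H) ((u : H →L[ℂ] H) x) = x := fun x =>
    congrArg (fun B : H →L[ℂ] H => B x) (Units.inv_mul u)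
  have hmul : ((μ : ℝ) : ℂ) * ((1 / μ : ℝ) : ℂ) = 1 := by
    rw [← Complex.ofReal_mul]
    have : μ * (1 / μ) = 1 := by field_simp
    rw [this]; simp
  -- resolvent identities
  have hr1 : ∀ x, r x + ((μ : ℝ) : ℂ) • A (r x) = x := by
    intro x
    have h1 := hinv1 x
    rw [hux] at h1
    rw [hr, smul_apply, map_smul, smul_smul]
    set z := ((u⁻¹ : (H →L[ℂ] H)ˣ) : H →L[ℂ] H) x with hz
    have h2 : ((μ : ℝ) : ℂ) * -((1 / μ : ℝ) : ℂ) = -1 := by rw [mul_neg, hmul]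
    rw [h2, neg_one_smul, ← sub_eq_add_neg]
    exact h1
  have hr2 : ∀ x, r (x + ((μ : ℝ) : ℂ) • A x) = x := by
    intro x
    have h1 := hinv2 x
    rw [hux] at h1
    rw [hr, smul_apply, ← map_smul, smul_add, smul_smul]
    have h2 : -((1 / μ : ℝ) : ℂ) * ((μ : ℝ) : ℂ) = -1 := by rw [neg_mul, mul_comm, hmul]
    rw [h2, neg_one_smul, ← sub_eq_add_neg]
    exact h1
  -- bound for G r
  have hGr : ∀ y, ‖G (r y)‖ ≤ (1 / ν) * ‖y‖ := by
    intro y
    set z := r y with hz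
    have h1 : y = z + ((μ : ℝ) : ℂ) • A z := (hr1 y).symm
    have h2 : (⟪z, y⟫_ℂ).re = ‖z‖ ^ 2 + μ * ‖G z‖ ^ 2 := by
      rw [h1, inner_add_right, inner_smul_right, inner_self_real, hA, inner_star_mul,
        ← Complex.ofReal_mul, ← Complex.ofReal_add, Complex.ofReal_re]
    have h3 : (⟪z, y⟫_ℂ).re ≤ ‖z‖ * ‖y‖ :=
      (Complex.re_le_norm _).trans (norm_inner_le_norm _ _)
    have h4 : (ν * ‖G z‖) ^ 2 ≤ ‖y‖ ^ 2 := by
      rw [mul_pow, ← hμ]
      nlinarith [sq_nonneg (‖z‖ - ‖y‖ / 2), norm_nonneg y, norm_nonneg z, sq_nonneg ‖y‖]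
    have h5 : ν * ‖G z‖ ≤ ‖y‖ :=
      (pow_le_pow_iff_left₀ (by positivity) (norm_nonneg _) two_ne_zero).1 h4
    rw [one_div, ← div_eq_inv_mul, le_div_iff₀ hν, mul_comm]
    exact h5
  have hrM : r ∈ S.M := by
    refine mem_of_commutes S fun g hg x => ?_
    have hgA : ∀ y, g (A y) = A (g y) := fun y =>
      commutes_of_mem S (mul_mem (star_mem hG) hG) hg y
    calc g (r x) = r (g (r x) + ((μ : ℝ) : ℂ) • A (g (r x))) := (hr2 _).symm
      _ = r (g (r x + ((μ : ℝ) : ℂ) • A (r x))) := by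
          rw [map_add g, map_smul g, hgA]
      _ = r (g x) := by rw [hr1]
  refine ⟨G * r, mul_mem hG hrM, ?_, fun x => ?_⟩
  · refine ContinuousLinearMap.opNorm_le_bound _ (by positivity) fun y => ?_
    exact hGr y
  · have h1 : x - r x = ((μ : ℝ) : ℂ) • r (A x) := by
      have := hr2 x
      rw [map_add, map_smul] at this
      rw [← this]
      nth_rewrite 1 [this]
      have h2 := hr2 x
      rw [map_add, map_smul] at h2
      rw [h2]
      rw [sub_eq_iff_eq_add, add_comm]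
      exact h2.symm
    have h2 : G x - (G * r) x = ((μ : ℝ) : ℂ) • G (r (A x)) := by
      change G x - G (r x) = _
      rw [← map_sub, h1, map_smul]
    rw [h2, norm_smul, Complex.norm_real, Real.norm_eq_abs, abs_of_pos hμ0]
    calc μ * ‖G (r (A x))‖ ≤ μ * ((1 / ν) * ‖A x‖) :=
          mul_le_mul_of_nonneg_left (hGr _) hμ0.le
      _ = ν * ‖A x‖ := by rw [hμ]; field_simp

theorem vac_norm_sq_le (S : ModularDatum H) (G : H →L[ℂ] H) :
    ‖G S.vac‖ ^ 2 ≤ ‖(star G * G) S.vac‖ := by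
  have h1 : ((‖G S.vac‖ ^ 2 : ℝ) : ℂ) = ⟪S.vac, (star G * G) S.vac⟫_ℂ := (inner_star_mul G _).symm
  have h2 : ‖((‖G S.vac‖ ^ 2 : ℝ) : ℂ)‖ ≤ ‖S.vac‖ * ‖(star G * G) S.vac‖ := by
    rw [h1]; exact norm_inner_le_norm _ _
  rw [S.norm_vac, one_mul, Complex.norm_real, Real.norm_eq_abs, abs_of_nonneg (by positivity)] at h2
  exact h2

theorem ultraMean_tendsto (S : ModularDatum H) (ω : Ultrafilter ℕ) (T : H →L[ℂ] H) (x : H) :
    Tendsto (wavg fun t : ℝ => ‖T (S.D.wave t x)‖ ^ 2) (ω : Filter ℕ)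
      (𝓝 (ultraMean ω fun t : ℝ => ‖T (S.D.wave t x)‖ ^ 2)) := by
  have b0 : ∀ t, ‖(fun t : ℝ => ‖T (S.D.wave t x)‖ ^ 2) t‖ ≤ (‖T‖ * ‖x‖) ^ 2 := by
    intro t
    simp only
    rw [Real.norm_eq_abs, abs_of_nonneg (by positivity)]
    have := T.le_opNorm (S.D.wave t x)
    rw [norm_wave] at this
    exact pow_le_pow_left₀ (norm_nonneg _) this 2
  exact tendsto_nhds_limUnder (exists_tendsto_wavg ω b0)

theorem wavg_mono {f g : ℝ → ℝ} (hf : Continuous f) (hg : Continuous g) (h : ∀ t, f t ≤ g t)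
    (k : ℕ) : wavg f k ≤ wavg g k := by
  rw [wavg_eq, wavg_eq, smul_eq_mul, smul_eq_mul]
  refine mul_le_mul_of_nonneg_left ?_ (by positivity)
  exact intervalIntegral.integral_mono (by simp) (hf.intervalIntegrable _ _)
    (hg.intervalIntegrable _ _) h

theorem continuous_norm_sq (S : ModularDatum H) (T : H →L[ℂ] H) (x : H) :
    Continuous fun t : ℝ => ‖T (S.D.wave t x)‖ ^ 2 :=
  ((T.continuous.comp (continuous_wave S.D x)).norm).pow 2

theorem ultraMean_compare (S : ModularDatum H) {ω : Ultrafilter ℕ} (hω : (ω : Filter ℕ) ≤ atTop)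
    (T : H →L[ℂ] H) (x y : H) :
    ultraMean ω (fun t : ℝ => ‖T (S.D.wave t x)‖ ^ 2) ≤
      2 * ultraMean ω (fun t : ℝ => ‖T (S.D.wave t y)‖ ^ 2) + 2 * (‖T‖ * ‖x - y‖) ^ 2 := by
  have t1 := ultraMean_tendsto S ω T x
  have t2 := (ultraMean_tendsto S ω T y).const_smul (2 : ℝ)
  have t3 := t2.add (tendsto_const_nhds (x := 2 * (‖T‖ * ‖x - y‖) ^ 2) (f := (ω : Filter ℕ)))
  refine le_of_tendsto_of_tendsto t1 t3 ?_
  have : ∀ᶠ k : ℕ in (ω : Filter ℕ), 0 < k := hω (eventually_gt_atTop 0)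
  filter_upwards [this] with k hk
  have hc := continuous_norm_sq S T y
  have hc2 : Continuous fun t : ℝ => (2 : ℝ) • ‖T (S.D.wave t y)‖ ^ 2 := hc.const_smul (2 : ℝ)
  have hc3 : Continuous fun _ : ℝ => 2 * (‖T‖ * ‖x - y‖) ^ 2 := continuous_const
  rw [← wavg_smul (𝕜 := ℝ), ← wavg_const (2 * (‖T‖ * ‖x - y‖) ^ 2) hk,
    ← wavg_add hc2 hc3]
  refine wavg_mono (continuous_norm_sq S T x) (hc2.add hc3)
    (fun t => ?_) k
  change _ ≤ 2 * ‖T (S.D.wave t y)‖ ^ 2 + 2 * (‖T‖ * ‖x - y‖) ^ 2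
  have h1 : ‖T (S.D.wave t x)‖ ≤ ‖T (S.D.wave t y)‖ + ‖T‖ * ‖x - y‖ := by
    have e1 : T (S.D.wave t x) = T (S.D.wave t y) + T (S.D.wave t (x - y)) := by
      rw [← map_add, ← map_add]; congr 2; abel
    rw [e1]
    refine (norm_add_le _ _).trans ?_
    have := T.le_opNorm (S.D.wave t (x - y))
    rw [norm_wave] at this
    linarith
  have h2 := pow_le_pow_left₀ (norm_nonneg _) h1 2
  nlinarith [sq_nonneg (‖T (S.D.wave t y)‖ - ‖T‖ * ‖x - y‖)]

/-- the core: uniform recovery at one step -/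
theorem recovery_core (S : ModularDatum H) (herg : S.Ergodic) {ω : Ultrafilter ℕ}
    (hω : (ω : Filter ℕ) ≤ atTop) (T : H →L[ℂ] H) (s δ₁ c : ℝ) (hc : 0 < c) :
    ∃ (C η : ℝ), 0 < η ∧ ∀ (δ : ℝ), 0 < δ → δ ≤ δ₁ → ∀ h : H, ‖h‖ = 1 →
      S.D.SupportedIn (Set.Icc (s - δ) (s + δ)) h →
      c ≤ ultraMean ω (fun t : ℝ => ‖T (S.D.wave t h)‖ ^ 2) →
      ∃ v : H →L[ℂ] H, v ∈ S.M ∧ ‖v‖ ≤ C ∧ η ≤ ‖T (v S.vac)‖ ∧
        S.D.SupportedIn (Set.Icc (s - 4 * δ) (s + 4 * δ)) (v S.vac) := by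
  obtain ⟨C₀, hC₀, hsm⟩ := exists_smoothing S
  set b := s + 2 * δ₁ with hb
  set L := 2 * (1 + 2 * Real.exp b) with hL
  have hL0 : 0 < L := by positivity
  set β := c / (256 * L) with hβ
  have hβ0 : 0 < β := by positivity
  set R := ‖T‖ ^ 2 / β with hR
  have hR0 : 0 ≤ R := by positivity
  set q := Real.sqrt (c / 8) with hq
  have hq0 : 0 < q := Real.sqrt_pos.2 (by positivity)
  set ν := q / (2 * (‖T‖ * R + 1)) with hν
  have hν0 : 0 < ν := by positivity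
  refine ⟨C₀ * (1 / ν), q / 2, by positivity, fun δ hδ hδ1 h hh hsupp hmean => ?_⟩
  -- step 1: approximate
  set ε := min 1 (Real.sqrt c / (2 * (‖T‖ + 1))) with hε
  have hε0 : 0 < ε := lt_min one_pos (by positivity)
  have hε1 : ε ≤ 1 := min_le_left _ _
  have hε2 : (‖T‖ * ε) ^ 2 ≤ c / 4 := by
    have h1 : ‖T‖ * ε ≤ Real.sqrt c / 2 := by
      calc ‖T‖ * ε ≤ (‖T‖ + 1) * (Real.sqrt c / (2 * (‖T‖ + 1))) := by
            apply mul_le_mul (by linarith) (min_le_right _ _) hε0.le (by positivity)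
        _ = Real.sqrt c / 2 := by field_simp
    have h2 := pow_le_pow_left₀ (by positivity) h1 2
    rw [div_pow, Real.sq_sqrt hc.le] at h2
    linarith
  obtain ⟨a₀, ha₀⟩ : ∃ a : S.M, ‖(a : H →L[ℂ] H) S.vac - h‖ < ε := by
    have := S.cyclic.exists_dist_lt h hε0
    obtain ⟨y, ⟨a, rfl⟩, hy⟩ := this
    exact ⟨a, by rw [dist_eq_norm, norm_sub_rev] at hy; exact hy⟩
  obtain ⟨F₁, hF₁n, hF₁1, hF₁0, hF₁⟩ := hsm s δ hδ
  obtain ⟨a, haM, -, haF⟩ := hF₁ a₀ a₀.2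
  have hh1 : S.D.apply F₁ h = h := by
    have := apply_eq_of_supportedIn hsupp (f := F₁) (g := 1) (fun u hu => by
      rw [hF₁1 u (by rw [abs_le]; constructor <;> linarith [hu.1, hu.2])]
      rfl)
    rw [this, map_one]; rfl
  have hah : ‖a S.vac - h‖ ≤ ε := by
    rw [haF]
    have : S.D.apply F₁ ((a₀ : H →L[ℂ] H) S.vac) - h =
        S.D.apply F₁ ((a₀ : H →L[ℂ] H) S.vac - h) := by rw [map_sub, hh1]
    rw [this]
    refine (apply_apply_norm_le _ _ _).trans ?_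
    calc ‖F₁‖ * ‖(a₀ : H →L[ℂ] H) S.vac - h‖ ≤ 1 * ε :=
          mul_le_mul hF₁n ha₀.le (norm_nonneg _) zero_le_one
      _ = ε := one_mul _
  set K := Set.Icc (s - 2 * δ) (s + 2 * δ) with hKdef
  have haK : S.D.SupportedIn K (a S.vac) := by
    rw [haF]
    refine supportedIn_apply _ fun u hu => hF₁0 u ?_
    by_contra hlt
    push Not at hlt
    apply hu
    rw [abs_lt] at hlt
    exact ⟨by linarith [hlt.1], by linarith [hlt.2]⟩
  have hKb : ∀ u ∈ K, u ≤ b := fun u hu => by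
    have := hu.2
    rw [hb]; linarith
  have hanorm : ‖a S.vac‖ ≤ 2 := by
    have : a S.vac = (a S.vac - h) + h := by abel
    rw [this]
    refine (norm_add_le _ _).trans ?_
    rw [hh]; linarith
  -- the mean for a
  have hmean2 : c / 4 ≤ ultraMean ω (fun t : ℝ => ‖T (S.D.wave t (a S.vac))‖ ^ 2) := by
    have h1 := ultraMean_compare S hω T h (a S.vac)
    have h2 : (‖T‖ * ‖h - a S.vac‖) ^ 2 ≤ (‖T‖ * ε) ^ 2 := by
      rw [norm_sub_rev]
      exact pow_le_pow_left₀ (by positivity)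
        (mul_le_mul_of_nonneg_left hah (norm_nonneg _)) 2
    linarith
  -- the good element
  obtain ⟨G, hGM, hGK, hGood⟩ := exists_good S herg hω T hKb haM haK (m := c / 4)
    (by positivity) hmean2 hβ0.le (by
      have h1 : ‖a S.vac‖ ^ 2 ≤ 4 := by nlinarith [norm_nonneg (a S.vac)]
      have h2 : ‖a S.vac‖ ^ 2 * ‖a S.vac‖ ^ 2 ≤ 16 := by nlinarith [sq_nonneg ‖a S.vac‖]
      have h3 : β * L * (‖a S.vac‖ ^ 2 * ‖a S.vac‖ ^ 2) ≤ β * L * 16 :=
        mul_le_mul_of_nonneg_left h2 (by positivity)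
      have h4 : β * L * 16 = c / 4 / 4 := by rw [hβ]; field_simp; ring
      rw [← hL, mul_assoc]
      linarith)
  have hGood1 : c / 8 ≤ ‖T (G S.vac)‖ ^ 2 := by
    have : 0 ≤ β * ‖(star G * G) S.vac‖ ^ 2 := by positivity
    linarith
  have hGood2 : ‖(star G * G) S.vac‖ ≤ R := by
    have h1 : ‖T (G S.vac)‖ ^ 2 ≤ ‖T‖ ^ 2 * ‖(star G * G) S.vac‖ := by
      have := pow_le_pow_left₀ (norm_nonneg _) (T.le_opNorm (G S.vac)) 2
      rw [mul_pow] at this
      exact this.trans (mul_le_mul_of_nonneg_left (vac_norm_sq_le S G) (by positivity))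
    have h2 : β * ‖(star G * G) S.vac‖ ^ 2 ≤ ‖T‖ ^ 2 * ‖(star G * G) S.vac‖ := by linarith
    rcases (norm_nonneg ((star G * G) S.vac)).eq_or_lt with h0 | h0
    · rw [← h0]; exact hR0
    · rw [hR, le_div_iff₀ hβ0]
      have h3 : β * ‖(star G * G) S.vac‖ * ‖(star G * G) S.vac‖ ≤
        ‖T‖ ^ 2 * ‖(star G * G) S.vac‖ := by rw [mul_assoc, ← sq]; exact h2
      have := le_of_mul_le_mul_right h3 h0
      linarith
  have hTG : q ≤ ‖T (G S.vac)‖ := by
    rw [hq]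
    exact Real.sqrt_le_iff.2 ⟨norm_nonneg _, hGood1⟩
  -- truncation
  obtain ⟨v₀, hv₀M, hv₀n, hv₀⟩ := exists_truncation S hGM hν0
  obtain ⟨F₂, hF₂n, hF₂1, hF₂0, hF₂⟩ := hsm s (2 * δ) (by positivity)
  obtain ⟨v, hvM, hvn, hvF⟩ := hF₂ v₀ hv₀M
  refine ⟨v, hvM, ?_, ?_, ?_⟩
  · exact hvn.trans (mul_le_mul_of_nonneg_left hv₀n hC₀)
  · have h1 : S.D.apply F₂ (G S.vac) = G S.vac := by
      have := apply_eq_of_supportedIn hGK (f := F₂) (g := 1) (fun u hu => by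
        rw [hF₂1 u (by rw [abs_le]; constructor <;> linarith [hu.1, hu.2])]
        rfl)
      rw [this, map_one]; rfl
    have h2 : ‖G S.vac - v S.vac‖ ≤ ν * R := by
      have e : G S.vac - v S.vac = S.D.apply F₂ (G S.vac - v₀ S.vac) := by
        rw [map_sub, h1, hvF]
      rw [e]
      refine (apply_apply_norm_le _ _ _).trans ?_
      calc ‖F₂‖ * ‖G S.vac - v₀ S.vac‖ ≤ 1 * (ν * ‖(star G * G) S.vac‖) :=
            mul_le_mul hF₂n (hv₀ _) (norm_nonneg _) zero_le_one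
        _ = ν * ‖(star G * G) S.vac‖ := one_mul _
        _ ≤ ν * R := mul_le_mul_of_nonneg_left hGood2 hν0.le
    have h3 : ‖T (G S.vac)‖ ≤ ‖T (v S.vac)‖ + ‖T‖ * (ν * R) := by
      have e : T (G S.vac) = T (v S.vac) + T (G S.vac - v S.vac) := by
        rw [← map_add]; congr 1; abel
      rw [e]
      refine (norm_add_le _ _).trans ?_
      have := (T.le_opNorm (G S.vac - v S.vac)).trans
        (mul_le_mul_of_nonneg_left h2 (norm_nonneg _))
      linarith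
    have h4 : ‖T‖ * (ν * R) ≤ q / 2 := by
      have e : ‖T‖ * (ν * R) = (q / 2) * ((‖T‖ * R) / (‖T‖ * R + 1)) := by
        rw [hν]; field_simp
      rw [e]
      have : (‖T‖ * R) / (‖T‖ * R + 1) ≤ 1 := by
        rw [div_le_one (by positivity)]; linarith
      calc (q / 2) * ((‖T‖ * R) / (‖T‖ * R + 1)) ≤ (q / 2) * 1 :=
            mul_le_mul_of_nonneg_left this (by positivity)
        _ = q / 2 := mul_one _
    linarith
  · rw [hvF]
    refine supportedIn_apply _ fun u hu => hF₂0 u ?_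
    by_contra hlt
    push Not at hlt
    apply hu
    rw [abs_lt] at hlt
    exact ⟨by linarith [hlt.1], by linarith [hlt.2]⟩

end Crest.Agent.Helper7
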