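import Crest.Agent.Helper7.Greedy

set_option autoImplicit false

open Filter MeasureTheory Topology
open scoped InnerProductSpace BoundedContinuousFunction FourierTransform

namespace Crest.Agent.Helper7

open Crest.OpAlg Crest.OpAlg.LineCalculus

variable {H : Type*} [NormedAddCommGroup H] [InnerProductSpace ℂ H] [CompleteSpace H]

/-- existence of the basic kernel -/
theorem exists_kernel : ∃ (κ : ℝ → ℂ) (χ : ℝ → ℝ), Continuous κ ∧ Integrable κ ∧ Continuous χ ∧
    (∀ u, 0 ≤ χ u ∧ χ u ≤ 1) ∧ (∀ u, |u| ≤ 1 → χ u = 1) ∧ (∀ u, 2 ≤ |u| → χ u = 0) ∧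
    ∀ u : ℝ, ∫ t : ℝ, κ t * Complex.exp (Complex.I * ((2 * Real.pi * t * u : ℝ) : ℂ)) = (χ u : ℂ) := by
  let b : ContDiffBump (0 : ℝ) := ⟨1, 2, one_pos, one_lt_two⟩
  have hcs : HasCompactSupport (fun u : ℝ => ((b u : ℝ) : ℂ)) :=
    b.hasCompactSupport.comp_left (g := fun r : ℝ => (r : ℂ)) (by simp)
  have hcd : ContDiff ℝ (⊤ : ℕ∞) (fun u : ℝ => ((b u : ℝ) : ℂ)) :=
    Complex.ofRealCLM.contDiff.comp b.contDiff
  let f : SchwartzMap ℝ ℂ := hcs.toSchwartzMap hcd
  have hf : ∀ u, f u = ((b u : ℝ) : ℂ) := fun u => rfl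
  refine ⟨(𝓕 f : SchwartzMap ℝ ℂ), b, (𝓕 f : SchwartzMap ℝ ℂ).continuous,
    (𝓕 f : SchwartzMap ℝ ℂ).integrable, b.continuous, fun u => ⟨b.nonneg, b.le_one⟩, ?_, ?_, ?_⟩
  · intro u hu
    exact b.one_of_mem_closedBall (by simpa using hu)
  · intro u hu
    exact b.zero_of_le_dist (by simpa using hu)
  · intro u
    have h1 : (𝓕⁻ (𝓕 f : SchwartzMap ℝ ℂ)) = f := FourierTransform.fourierInv_fourier_eq f
    have h2 : (𝓕⁻ (𝓕 f : SchwartzMap ℝ ℂ)) u = ((b u : ℝ) : ℂ) := by rw [h1, hf]
    rw [SchwartzMap.fourierInv_coe, Real.fourierInv_eq'] at h2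
    rw [← h2]
    congr 1
    funext t
    rw [smul_eq_mul, mul_comm]
    congr 2
    simp
    ring

section smoothing

variable (S : ModularDatum H)

theorem norm_flow_apply_le (t : ℝ) (a : H →L[ℂ] H) (x : H) : ‖S.flow t a x‖ ≤ ‖a‖ * ‖x‖ := by
  rw [flow_apply, norm_wave]
  refine (a.le_opNorm _).trans ?_
  rw [norm_wave]

theorem integrable_smul_flow {k : ℝ → ℂ} (hk : Integrable k) (τ : ℝ) (a : H →L[ℂ] H) (x : H) :
    Integrable fun t : ℝ => k t • S.flow (τ * t) a x := by
  have hc : Continuous fun t : ℝ => S.flow (τ * t) a x :=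
    (continuous_flow_apply S a x).comp (continuous_const.mul continuous_id)
  refine Integrable.mono' (hk.norm.mul_const (‖a‖ * ‖x‖))
    (hk.aestronglyMeasurable.smul hc.aestronglyMeasurable) ?_
  refine Eventually.of_forall fun t => ?_
  rw [norm_smul]
  exact mul_le_mul_of_nonneg_left (norm_flow_apply_le S _ _ _) (norm_nonneg _)

theorem integrable_smul_wave (D : LineCalculus H) {k : ℝ → ℂ} (hk : Integrable k) (τ : ℝ) (x : H) :
    Integrable fun t : ℝ => k t • D.wave (τ * t) x := by
  have hc : Continuous fun t : ℝ => D.wave (τ * t) x :=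
    (continuous_wave D x).comp (continuous_const.mul continuous_id)
  refine Integrable.mono' (hk.norm.mul_const (‖x‖))
    (hk.aestronglyMeasurable.smul hc.aestronglyMeasurable) ?_
  refine Eventually.of_forall fun t => ?_
  rw [norm_smul, norm_wave]

/-- the smoothed operator `∫ k(t) σ_{τ t}(a) dt` -/
noncomputable def smoothOp (k : ℝ → ℂ) (hk : Integrable k) (τ : ℝ) (a : H →L[ℂ] H) :
    H →L[ℂ] H :=
  LinearMap.mkContinuous
    { toFun := fun x => ∫ t : ℝ, k t • S.flow (τ * t) a x
      map_add' := fun x y => by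
        simp_rw [map_add, smul_add]
        exact integral_add (integrable_smul_flow S hk τ a x) (integrable_smul_flow S hk τ a y)
      map_smul' := fun c x => by
        simp_rw [map_smul, smul_comm _ c]
        exact integral_smul c _ }
    ((∫ t : ℝ, ‖k t‖) * ‖a‖) (fun x => by
      change ‖∫ t : ℝ, k t • S.flow (τ * t) a x‖ ≤ _
      refine (norm_integral_le_integral_norm _).trans ?_
      rw [mul_assoc, ← integral_mul_const]
      refine integral_mono (integrable_smul_flow S hk τ a x).norm (hk.norm.mul_const _) fun t => ?_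
      simp only [norm_smul]
      exact mul_le_mul_of_nonneg_left (norm_flow_apply_le S _ _ _) (norm_nonneg _))

theorem smoothOp_apply {k : ℝ → ℂ} (hk : Integrable k) (τ : ℝ) (a : H →L[ℂ] H) (x : H) :
    smoothOp S k hk τ a x = ∫ t : ℝ, k t • S.flow (τ * t) a x := rfl

theorem smoothOp_norm_le {k : ℝ → ℂ} (hk : Integrable k) (τ : ℝ) (a : H →L[ℂ] H) :
    ‖smoothOp S k hk τ a‖ ≤ (∫ t : ℝ, ‖k t‖) * ‖a‖ :=
  LinearMap.mkContinuous_norm_le _ (by positivity) _

theorem smoothOp_mem {k : ℝ → ℂ} (hk : Integrable k) (τ : ℝ) {a : H →L[ℂ] H} (ha : a ∈ S.M) :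
    smoothOp S k hk τ a ∈ S.M := by
  refine mem_of_commutes S fun g hg x => ?_
  rw [smoothOp_apply, smoothOp_apply, ← ContinuousLinearMap.integral_comp_comm g
    (integrable_smul_flow S hk τ a x)]
  congr 1
  funext t
  rw [map_smul, commutes_of_mem S (flow_mem' S _ ha) hg]

end smoothing

/-- the calculus as a continuous linear map in the function -/
noncomputable def calcCLM (D : LineCalculus H) (x : H) : BoundedContinuousFunction ℝ ℂ →L[ℂ] H :=
  LinearMap.mkContinuous
    { toFun := fun f => D.apply f x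
      map_add' := fun f g => by rw [map_add]; rfl
      map_smul' := fun c f => by rw [map_smul]; rfl }
    ‖x‖ (fun f => by
      change ‖D.apply f x‖ ≤ _
      rw [mul_comm]
      exact apply_apply_norm_le D f x)

theorem calcCLM_apply (D : LineCalculus H) (x : H) (f : BoundedContinuousFunction ℝ ℂ) :
    calcCLM D x f = D.apply f x := rfl

theorem integral_wave (D : LineCalculus H) {k : ℝ → ℂ} (hk : Integrable k) (τ : ℝ)
    (F : BoundedContinuousFunction ℝ ℂ)
    (hF : ∀ u : ℝ, F u = ∫ t : ℝ, k t * Complex.exp (Complex.I * ((τ * t * u : ℝ) : ℂ))) (x : H) :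
    ∫ t : ℝ, k t • D.wave (τ * t) x = D.apply F x := by
  -- on compactly supported vectors
  have h1 : ∀ (p : BoundedContinuousFunction ℝ ℂ) (R : ℝ), 0 < R → (∀ u, R < |u| → p u = 0) →
      ∫ t : ℝ, k t • D.wave (τ * t) (D.apply p x) = D.apply F (D.apply p x) := by
    intro p R hR hp
    have hc : Continuous fun t : ℝ => character (τ * t) * p :=
      (continuous_character_mul p R hR hp).comp (continuous_const.mul continuous_id)
    have hint : Integrable fun t : ℝ => k t • (character (τ * t) * p) := by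
      refine Integrable.mono' (hk.norm.mul_const (‖p‖))
        (hk.aestronglyMeasurable.smul hc.aestronglyMeasurable) ?_
      refine Eventually.of_forall fun t => ?_
      rw [norm_smul]
      refine mul_le_mul_of_nonneg_left ?_ (norm_nonneg _)
      refine (norm_mul_le _ _).trans ?_
      have := mul_le_mul_of_nonneg_right (character_norm_le (τ * t)) (norm_nonneg p)
      simpa using this
    have h2 : ∫ t : ℝ, k t • (character (τ * t) * p) = F * p := by
      ext u
      have := (BoundedContinuousFunction.evalCLM ℂ u).integral_comp_comm hint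
      rw [BoundedContinuousFunction.evalCLM_apply] at this
      rw [← this]
      simp only [BoundedContinuousFunction.evalCLM_apply, BoundedContinuousFunction.coe_smul,
        BoundedContinuousFunction.coe_mul, Pi.mul_apply, smul_eq_mul, character_apply]
      rw [hF u, ← integral_mul_const]
      congr 1
      funext t
      ring
    have h3 := (calcCLM D x).integral_comp_comm hint
    rw [h2, calcCLM_apply, apply_mul_apply] at h3
    rw [← h3]
    congr 1
    funext t
    rw [map_smul, calcCLM_apply, apply_mul_apply]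
    rfl
  -- approximate
  rw [← sub_eq_zero, ← norm_le_zero_iff]
  refine le_of_forall_pos_le_add fun ε hε => ?_
  rw [zero_add]
  set I1 := ∫ t : ℝ, ‖k t‖ with hI1
  have hI1n : 0 ≤ I1 := by positivity
  obtain ⟨p, R, hR, hp, hx⟩ := window_dense D x (ε / (I1 + ‖F‖ + 1)) (by positivity)
  have h4 := h1 p R hR hp
  have h5 : ‖(∫ t : ℝ, k t • D.wave (τ * t) (D.apply p x)) - ∫ t : ℝ, k t • D.wave (τ * t) x‖
      ≤ I1 * ‖D.apply p x - x‖ := by
    rw [← integral_sub (integrable_smul_wave D hk τ _) (integrable_smul_wave D hk τ _)]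
    refine (norm_integral_le_integral_norm _).trans ?_
    rw [hI1, ← integral_mul_const]
    refine integral_mono ((integrable_smul_wave D hk τ _).sub
      (integrable_smul_wave D hk τ _)).norm (hk.norm.mul_const _) fun t => ?_
    simp only [← smul_sub, ← map_sub, norm_smul, norm_wave]
    exact le_rfl
  have h6 : ‖D.apply F (D.apply p x) - D.apply F x‖ ≤ ‖F‖ * ‖D.apply p x - x‖ := by
    rw [← map_sub]; exact apply_apply_norm_le D F _
  have h7 : (∫ t : ℝ, k t • D.wave (τ * t) x) - D.apply F x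
      = (D.apply F (D.apply p x) - D.apply F x) -
        ((∫ t : ℝ, k t • D.wave (τ * t) (D.apply p x)) - ∫ t : ℝ, k t • D.wave (τ * t) x) := by
    rw [h4]; abel
  rw [h7]
  refine (norm_sub_le _ _).trans ?_
  have h8 : (I1 + ‖F‖) * ‖D.apply p x - x‖ ≤ (I1 + ‖F‖ + 1) * (ε / (I1 + ‖F‖ + 1)) := by
    apply mul_le_mul (by linarith) hx.le (norm_nonneg _) (by positivity)
  have h9 : (I1 + ‖F‖ + 1) * (ε / (I1 + ‖F‖ + 1)) = ε := by
    field_simp
  rw [h9] at h8
  linarith

/-- smoothing with the de la Vallée-Poussin type kernel -/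
theorem exists_smoothing (S : ModularDatum H) : ∃ C : ℝ, 0 ≤ C ∧ ∀ (s w : ℝ), 0 < w →
    ∃ F : BoundedContinuousFunction ℝ ℂ, ‖F‖ ≤ 1 ∧ (∀ u, |u - s| ≤ w → F u = 1) ∧
      (∀ u, 2 * w ≤ |u - s| → F u = 0) ∧
      ∀ a ∈ S.M, ∃ a' ∈ S.M, ‖a'‖ ≤ C * ‖a‖ ∧ a' S.vac = S.D.apply F (a S.vac) := by
  obtain ⟨κ, χ, hκc, hκ, hχc, hχ, hχ1, hχ0, hF⟩ := exists_kernel
  refine ⟨∫ t : ℝ, ‖κ t‖, by positivity, fun s w hw => ?_⟩
  let F : BoundedContinuousFunction ℝ ℂ := BoundedContinuousFunction.ofNormedAddCommGroup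
    (fun u : ℝ => ((χ ((u - s) / w) : ℝ) : ℂ)) (by fun_prop) 1 (fun u => by
      rw [Complex.norm_real, Real.norm_eq_abs, abs_of_nonneg (hχ _).1]
      exact (hχ _).2)
  have hFa : ∀ u, F u = ((χ ((u - s) / w) : ℝ) : ℂ) := fun u => rfl
  let k : ℝ → ℂ := fun t => κ t * Complex.exp (Complex.I * ((2 * Real.pi * t * (-s / w) : ℝ) : ℂ))
  have hnk : ∀ t, ‖k t‖ = ‖κ t‖ := by
    intro t
    simp only [k]
    rw [norm_mul, Complex.norm_exp]
    simp
  have hk : Integrable k := by
    refine Integrable.mono' hκ.norm ?_ (Eventually.of_forall fun t => (hnk t).le)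
    have : Continuous k := by fun_prop
    exact this.aestronglyMeasurable
  refine ⟨F, BoundedContinuousFunction.norm_ofNormedAddCommGroup_le _ zero_le_one _, ?_, ?_, ?_⟩
  · intro u hu
    rw [hFa, hχ1]
    · simp
    · rw [abs_div, abs_of_pos hw, div_le_one hw]; exact hu
  · intro u hu
    rw [hFa, hχ0]
    · simp
    · rw [abs_div, abs_of_pos hw, le_div_iff₀ hw]; exact hu
  · intro a ha
    refine ⟨smoothOp S k hk (2 * Real.pi / w) a, smoothOp_mem S hk _ ha, ?_, ?_⟩
    · refine (smoothOp_norm_le S hk _ a).trans (le_of_eq ?_)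
      simp_rw [hnk]
    · rw [smoothOp_apply]
      simp_rw [flow_vac]
      refine integral_wave S.D hk (2 * Real.pi / w) F (fun u => ?_) (a S.vac)
      rw [hFa, ← hF]
      congr 1
      funext t
      simp only [k]
      rw [mul_assoc (κ t), ← Complex.exp_add]
      congr 2
      push_cast
      field_simp
      ring

end Crest.Agent.Helper7
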