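import Crest.Agent.Helper7.Ergodic

set_option autoImplicit false

open Filter MeasureTheory Topology
open scoped InnerProductSpace BoundedContinuousFunction

namespace Crest.Agent.Helper7

open Crest.OpAlg Crest.OpAlg.LineCalculus

variable {H : Type*} [NormedAddCommGroup H] [InnerProductSpace ℂ H] [CompleteSpace H]

theorem flow_mul (S : ModularDatum H) (t : ℝ) (a b : H →L[ℂ] H) :
    S.flow t (a * b) = S.flow t a * S.flow t b := by
  ext x
  change S.D.wave t (a (b (S.D.wave (-t) x))) =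
    S.D.wave t (a (S.D.wave (-t) (S.D.wave t (b (S.D.wave (-t) x)))))
  rw [wave_neg_wave]

theorem flow_star (S : ModularDatum H) (t : ℝ) (a : H →L[ℂ] H) :
    S.flow t (star a) = star (S.flow t a) := by
  simp only [ModularDatum.flow, star_mul, star_wave, neg_neg, mul_assoc]

theorem wavg_re {f : ℝ → ℂ} (hf : Continuous f) (k : ℕ) :
    wavg (fun t => (f t).re) k = (wavg f k).re := by
  rw [wavg_eq, wavg_eq]
  have := Complex.reCLM.intervalIntegral_comp_comm (hf.intervalIntegrable (μ := volume) (-(k:ℝ)) k)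
  simp only [Complex.reCLM_apply] at this
  rw [this]
  simp

theorem tendsto_wavg_re {ω : Ultrafilter ℕ} {f : ℝ → ℂ} (hf : Continuous f) {l : ℂ}
    (h : Tendsto (wavg f) (ω : Filter ℕ) (𝓝 l)) :
    Tendsto (wavg fun t => (f t).re) (ω : Filter ℕ) (𝓝 l.re) := by
  have := (Complex.continuous_re.tendsto l).comp h
  refine this.congr fun k => ?_
  rw [Function.comp_apply, wavg_re hf]

theorem re_inner_self (x : H) : (⟪x, x⟫_ℂ).re = ‖x‖ ^ 2 := by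
  have := inner_self_eq_norm_sq (𝕜 := ℂ) x
  simpa using this

theorem inner_self_real (x : H) : ⟪x, x⟫_ℂ = ((‖x‖ ^ 2 : ℝ) : ℂ) := by
  rw [inner_self_eq_norm_sq_to_K]; norm_num

theorem inner_star_mul (a : H →L[ℂ] H) (x : H) : ⟪x, (star a * a) x⟫_ℂ = ((‖a x‖ ^ 2 : ℝ) : ℂ) := by
  rw [← inner_self_real, mul_apply_eq_comp, ContinuousLinearMap.star_eq_adjoint,
    ContinuousLinearMap.adjoint_inner_right]

theorem inner_mul_star (a : H →L[ℂ] H) (x : H) :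
    ⟪x, (a * star a) x⟫_ℂ = ((‖star a x‖ ^ 2 : ℝ) : ℂ) := by
  have := inner_star_mul (star a) x
  rwa [star_star] at this

section means

variable (S : ModularDatum H) (herg : S.Ergodic) {ω : Ultrafilter ℕ}
  (hω : (ω : Filter ℕ) ≤ atTop)
include herg hω

theorem mean_one {a G : H →L[ℂ] H} (ha : a ∈ S.M) :
    Tendsto (wavg fun t : ℝ => (⟪(star G * G) S.vac, S.flow t (star a * a) S.vac⟫_ℂ).re)
      (ω : Filter ℕ) (𝓝 (‖a S.vac‖ ^ 2 * ‖G S.vac‖ ^ 2)) := by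
  have h := ergodic_mean S herg hω (mul_mem (star_mem ha) ha) ((star G * G) S.vac) S.vac
  have h2 := tendsto_wavg_re (continuous_inner_flow S _ _ _) h
  convert h2 using 2
  rw [inner_star_mul]
  have : ⟪(star G * G) S.vac, S.vac⟫_ℂ = ((‖G S.vac‖ ^ 2 : ℝ) : ℂ) := by
    rw [← inner_conj_symm, inner_star_mul, Complex.conj_ofReal]
  rw [this, ← Complex.ofReal_mul, Complex.ofReal_re]

theorem mean_two {a G : H →L[ℂ] H} (hG : G ∈ S.M) :
    Tendsto (wavg fun t : ℝ => ‖star G (S.flow t a S.vac)‖ ^ 2)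
      (ω : Filter ℕ) (𝓝 (‖star G S.vac‖ ^ 2 * ‖a S.vac‖ ^ 2)) := by
  have h := ergodic_mean S herg hω (mul_mem hG (star_mem hG)) (a S.vac) (a S.vac)
  have h2 := tendsto_wavg_re (continuous_inner_flow S _ _ _) h
  have e1 : (⟪S.vac, (G * star G) S.vac⟫_ℂ * ⟪a S.vac, a S.vac⟫_ℂ).re
      = ‖star G S.vac‖ ^ 2 * ‖a S.vac‖ ^ 2 := by
    rw [inner_mul_star, inner_self_real, ← Complex.ofReal_mul, Complex.ofReal_re]
  rw [e1] at h2
  refine h2.congr fun k => ?_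
  rw [← wavg_neg_arg]
  congr 1
  funext t
  rw [inner_flow, neg_neg, inner_mul_star, Complex.ofReal_re, flow_vac]

theorem mean_three {a G : H →L[ℂ] H} (ha : a ∈ S.M) :
    Tendsto (wavg fun t : ℝ => ‖star (S.flow t a) (G S.vac)‖ ^ 2)
      (ω : Filter ℕ) (𝓝 (‖star a S.vac‖ ^ 2 * ‖G S.vac‖ ^ 2)) := by
  have h := ergodic_mean S herg hω (mul_mem ha (star_mem ha)) (G S.vac) (G S.vac)
  have h2 := tendsto_wavg_re (continuous_inner_flow S _ _ _) h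
  have e1 : (⟪S.vac, (a * star a) S.vac⟫_ℂ * ⟪G S.vac, G S.vac⟫_ℂ).re
      = ‖star a S.vac‖ ^ 2 * ‖G S.vac‖ ^ 2 := by
    rw [inner_mul_star, inner_self_real, ← Complex.ofReal_mul, Complex.ofReal_re]
  rw [e1] at h2
  refine h2.congr fun k => ?_
  congr 1
  funext t
  rw [flow_mul, flow_star, inner_mul_star, Complex.ofReal_re]

end means

theorem continuous_flow_apply (S : ModularDatum H) (a : H →L[ℂ] H) (x : H) :
    Continuous fun t : ℝ => S.flow t a x := by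
  -- joint continuity using uniform boundedness
  have h1 : Continuous fun t : ℝ => a (S.D.wave (-t) x) :=
    a.continuous.comp ((continuous_wave S.D x).comp continuous_neg)
  rw [continuous_iff_continuousAt]
  intro t
  rw [ContinuousAt, tendsto_iff_norm_sub_tendsto_zero]
  have h2 : Tendsto (fun s => ‖a (S.D.wave (-s) x) - a (S.D.wave (-t) x)‖ +
      ‖S.D.wave s (a (S.D.wave (-t) x)) - S.D.wave t (a (S.D.wave (-t) x))‖) (𝓝 t) (𝓝 0) := by
    have e1 := (tendsto_iff_norm_sub_tendsto_zero).1 (h1.tendsto t)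
    have e2 := (tendsto_iff_norm_sub_tendsto_zero).1
      ((continuous_wave S.D (a (S.D.wave (-t) x))).tendsto t)
    simpa using e1.add e2
  refine squeeze_zero (fun s => norm_nonneg _) (fun s => ?_) h2
  rw [flow_apply, flow_apply]
  have : S.D.wave s (a (S.D.wave (-s) x)) - S.D.wave t (a (S.D.wave (-t) x))
      = S.D.wave s (a (S.D.wave (-s) x) - a (S.D.wave (-t) x)) +
        (S.D.wave s (a (S.D.wave (-t) x)) - S.D.wave t (a (S.D.wave (-t) x))) := by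
    rw [map_sub]; abel
  rw [this]
  refine (norm_add_le _ _).trans ?_
  rw [norm_wave]

/-- The existence of a good time. -/
theorem exists_good_time (S : ModularDatum H) (herg : S.Ergodic) {ω : Ultrafilter ℕ}
    (hω : (ω : Filter ℕ) ≤ atTop) (T : H →L[ℂ] H) {a G : H →L[ℂ] H} (ha : a ∈ S.M) (hG : G ∈ S.M)
    {m : ℝ} (hm : m ≤ ultraMean ω (fun t : ℝ => ‖T (S.D.wave t (a S.vac))‖ ^ 2))
    (β η : ℝ) (hη : 0 < η) :
    ∃ t : ℝ, m - η - β * (‖a S.vac‖ ^ 2 * ‖G S.vac‖ ^ 2 + ‖star G S.vac‖ ^ 2 * ‖a S.vac‖ ^ 2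
        + ‖star a S.vac‖ ^ 2 * ‖G S.vac‖ ^ 2) ≤
      ‖T (S.flow t a S.vac)‖ ^ 2 -
        β * ((⟪(star G * G) S.vac, S.flow t (star a * a) S.vac⟫_ℂ).re +
          ‖star G (S.flow t a S.vac)‖ ^ 2 + ‖star (S.flow t a) (G S.vac)‖ ^ 2) := by
  set f0 : ℝ → ℝ := fun t => ‖T (S.D.wave t (a S.vac))‖ ^ 2 with hf0
  set f1 : ℝ → ℝ := fun t => (⟪(star G * G) S.vac, S.flow t (star a * a) S.vac⟫_ℂ).re with hf1
  set f2 : ℝ → ℝ := fun t => ‖star G (S.flow t a S.vac)‖ ^ 2 with hf2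
  set f3 : ℝ → ℝ := fun t => ‖star (S.flow t a) (G S.vac)‖ ^ 2 with hf3
  have c0 : Continuous f0 := by
    have := T.continuous.comp (continuous_wave S.D (a S.vac))
    exact (this.norm).pow 2
  have c1 : Continuous f1 := Complex.continuous_re.comp (continuous_inner_flow S _ _ _)
  have c2 : Continuous f2 := by
    have := (star G).continuous.comp (continuous_flow_apply S a S.vac)
    exact (this.norm).pow 2
  have c3 : Continuous f3 := by
    have : Continuous fun t : ℝ => star (S.flow t a) (G S.vac) := by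
      simp_rw [← flow_star]
      exact continuous_flow_apply S _ _
    exact (this.norm).pow 2
  have b0 : ∀ t, ‖f0 t‖ ≤ (‖T‖ * ‖a S.vac‖) ^ 2 := by
    intro t
    rw [hf0, Real.norm_eq_abs, abs_of_nonneg (by positivity)]
    have := T.le_opNorm (S.D.wave t (a S.vac))
    rw [norm_wave] at this
    exact pow_le_pow_left₀ (norm_nonneg _) this 2
  have t0 : Tendsto (wavg f0) (ω : Filter ℕ) (𝓝 (ultraMean ω f0)) :=
    tendsto_nhds_limUnder (exists_tendsto_wavg ω b0)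
  have t1 := mean_one S herg hω (G := G) ha
  have t2 := mean_two S herg hω (a := a) hG
  have t3 := mean_three S herg hω (G := G) ha
  set Φ : ℝ → ℝ := fun t => f0 t + (-β) • (f1 t + f2 t + f3 t) with hΦ
  have c4 : Continuous fun t => f1 t + f2 t := c1.add c2
  have c5 : Continuous fun t => f1 t + f2 t + f3 t := c4.add c3
  have c6 : Continuous fun t => (-β) • (f1 t + f2 t + f3 t) := c5.const_smul (-β)
  have cΦ : Continuous Φ := c0.add c6
  have tΦ : Tendsto (wavg Φ) (ω : Filter ℕ) (𝓝 (ultraMean ω f0 + (-β) •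
      (‖a S.vac‖ ^ 2 * ‖G S.vac‖ ^ 2 + ‖star G S.vac‖ ^ 2 * ‖a S.vac‖ ^ 2
        + ‖star a S.vac‖ ^ 2 * ‖G S.vac‖ ^ 2))) := by
    have := t0.add (((t1.add t2).add t3).const_smul (-β))
    refine this.congr fun k => ?_
    rw [hΦ, wavg_add c0 c6, wavg_smul (𝕜 := ℝ), wavg_add c4 c3, wavg_add c1 c2]
  have hlt : m - η - β * (‖a S.vac‖ ^ 2 * ‖G S.vac‖ ^ 2 + ‖star G S.vac‖ ^ 2 * ‖a S.vac‖ ^ 2
        + ‖star a S.vac‖ ^ 2 * ‖G S.vac‖ ^ 2) < ultraMean ω f0 + (-β) •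
      (‖a S.vac‖ ^ 2 * ‖G S.vac‖ ^ 2 + ‖star G S.vac‖ ^ 2 * ‖a S.vac‖ ^ 2
        + ‖star a S.vac‖ ^ 2 * ‖G S.vac‖ ^ 2) := by
    rw [smul_eq_mul]; linarith
  have hev := tΦ.eventually_const_lt hlt
  have hev2 : ∀ᶠ k : ℕ in (ω : Filter ℕ), 0 < k := hω (eventually_gt_atTop 0)
  obtain ⟨k, hk1, hk2⟩ := (hev.and hev2).exists
  have hk' : (0 : ℝ) < k := by exact_mod_cast hk2
  have hvol : (volume (Set.Icc (-(k : ℝ)) k)) ≠ 0 := by
    rw [Real.volume_Icc]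
    simp only [ne_eq, ENNReal.ofReal_eq_zero, not_le]; linarith
  obtain ⟨t, -, ht⟩ := exists_setAverage_le (μ := volume) (s := Set.Icc (-(k : ℝ)) k) (f := Φ)
    hvol (by rw [Real.volume_Icc]; exact ENNReal.ofReal_ne_top)
    (cΦ.continuousOn.integrableOn_compact isCompact_Icc)
  refine ⟨t, ?_⟩
  have h4 : wavg Φ k ≤ Φ t := ht
  have h5 : f0 t = ‖T (S.flow t a S.vac)‖ ^ 2 := by rw [hf0, flow_vac]
  rw [← h5]
  have h6 := hk1.le.trans h4
  simp only [hΦ, smul_eq_mul] at h6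
  linarith

/-- the potential function -/
noncomputable def pot (S : ModularDatum H) (T : H →L[ℂ] H) (β γ : ℝ) (G : H →L[ℂ] H) : ℝ :=
  ‖T (G S.vac)‖ ^ 2 - β * ‖(star G * G) S.vac‖ ^ 2 - γ * ‖G S.vac‖ ^ 2

theorem pot_sign (S : ModularDatum H) (T : H →L[ℂ] H) {β : ℝ} (hβ : 0 ≤ β) (γ : ℝ)
    (G B : H →L[ℂ] H) :
    2 * (‖T (G S.vac)‖ ^ 2 + ‖T (B S.vac)‖ ^ 2
      - β * (‖(star G * G) S.vac‖ ^ 2 + ‖(star B * B) S.vac‖ ^ 2 +
        2 * (⟪(star G * G) S.vac, (star B * B) S.vac⟫_ℂ).re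
        + 2 * ‖star G (B S.vac)‖ ^ 2 + 2 * ‖star B (G S.vac)‖ ^ 2)
      - γ * (‖G S.vac‖ ^ 2 + ‖B S.vac‖ ^ 2)) ≤
      pot S T β γ (G + B) + pot S T β γ (G + -B) := by
  unfold pot
  set P := (star G * G) S.vac + (star B * B) S.vac with hP
  set R := star G (B S.vac) + star B (G S.vac) with hR
  have e1 : (star (G + B) * (G + B)) S.vac = P + R := by
    rw [star_add, hP, hR]
    simp only [add_mul, mul_add, add_apply, mul_apply_eq_comp]
    abel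
  have e2 : (star (G + -B) * (G + -B)) S.vac = P - R := by
    rw [star_add, star_neg, hP, hR]
    simp only [add_mul, mul_add, add_apply, mul_apply_eq_comp,
      neg_apply, neg_mul, mul_neg]
    abel
  have p1 := parallelogram_law_with_norm ℂ P R
  have p2 := parallelogram_law_with_norm ℂ (T (G S.vac)) (T (B S.vac))
  have p3 := parallelogram_law_with_norm ℂ (G S.vac) (B S.vac)
  have p4 := parallelogram_law_with_norm ℂ (star G (B S.vac)) (star B (G S.vac))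
  have q1 : ‖P‖ ^ 2 = ‖(star G * G) S.vac‖ ^ 2 + 2 * (⟪(star G * G) S.vac, (star B * B) S.vac⟫_ℂ).re
      + ‖(star B * B) S.vac‖ ^ 2 := by
    have := norm_add_sq (𝕜 := ℂ) ((star G * G) S.vac) ((star B * B) S.vac)
    rw [hP]
    simpa using this
  have q2 : ‖R‖ ^ 2 ≤ 2 * ‖star G (B S.vac)‖ ^ 2 + 2 * ‖star B (G S.vac)‖ ^ 2 := by
    have := sq_nonneg ‖star G (B S.vac) - star B (G S.vac)‖
    rw [hR]; linarith
  have r1 : T ((G + B) S.vac) = T (G S.vac) + T (B S.vac) := by simp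
  have r2 : T ((G + -B) S.vac) = T (G S.vac) - T (B S.vac) := by simp [sub_eq_add_neg]
  have r3 : (G + B) S.vac = G S.vac + B S.vac := by simp
  have r4 : (G + -B) S.vac = G S.vac - B S.vac := by simp [sub_eq_add_neg]
  rw [e1, e2, r1, r2, r3, r4]
  have : β * ‖R‖ ^ 2 ≤ β * (2 * ‖star G (B S.vac)‖ ^ 2 + 2 * ‖star B (G S.vac)‖ ^ 2) :=
    mul_le_mul_of_nonneg_left q2 hβ
  have k1 : ‖T (G S.vac) + T (B S.vac)‖ ^ 2 + ‖T (G S.vac) - T (B S.vac)‖ ^ 2 =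
    2 * (‖T (G S.vac)‖ ^ 2 + ‖T (B S.vac)‖ ^ 2) := p2
  have k2 : ‖P + R‖ ^ 2 + ‖P - R‖ ^ 2 = 2 * (‖P‖ ^ 2 + ‖R‖ ^ 2) := p1
  have k3 : ‖G S.vac + B S.vac‖ ^ 2 + ‖G S.vac - B S.vac‖ ^ 2 =
    2 * (‖G S.vac‖ ^ 2 + ‖B S.vac‖ ^ 2) := p3
  have k2' : β * (‖P + R‖ ^ 2 + ‖P - R‖ ^ 2) = β * (2 * (‖P‖ ^ 2 + ‖R‖ ^ 2)) := by rw [k2]
  have k3' : γ * (‖G S.vac + B S.vac‖ ^ 2 + ‖G S.vac - B S.vac‖ ^ 2) =
    γ * (2 * (‖G S.vac‖ ^ 2 + ‖B S.vac‖ ^ 2)) := by rw [k3]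
  have q1' : β * ‖P‖ ^ 2 = β * (‖(star G * G) S.vac‖ ^ 2
      + 2 * (⟪(star G * G) S.vac, (star B * B) S.vac⟫_ℂ).re
      + ‖(star B * B) S.vac‖ ^ 2) := by rw [q1]
  linarith

/-- the step of the greedy construction -/
theorem pot_step (S : ModularDatum H) (herg : S.Ergodic) {ω : Ultrafilter ℕ}
    (hω : (ω : Filter ℕ) ≤ atTop) (T : H →L[ℂ] H) {K : Set ℝ} {b : ℝ} (hK : ∀ u ∈ K, u ≤ b)
    {a G : H →L[ℂ] H} (ha : a ∈ S.M) (hG : G ∈ S.M)
    (haK : S.D.SupportedIn K (a S.vac)) (hGK : S.D.SupportedIn K (G S.vac))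
    {m : ℝ} (hm : m ≤ ultraMean ω (fun t : ℝ => ‖T (S.D.wave t (a S.vac))‖ ^ 2))
    {β : ℝ} (hβ : 0 ≤ β) (γ η : ℝ) (hη : 0 < η) :
    ∃ G' : H →L[ℂ] H, G' ∈ S.M ∧ S.D.SupportedIn K (G' S.vac) ∧
      ‖T (G S.vac)‖ ^ 2 + m - η - β * (‖(star G * G) S.vac‖ ^ 2 + ‖(star a * a) S.vac‖ ^ 2
        + 2 * (1 + 2 * Real.exp b) * ‖a S.vac‖ ^ 2 * ‖G S.vac‖ ^ 2)
        - γ * (‖G S.vac‖ ^ 2 + ‖a S.vac‖ ^ 2) ≤ pot S T β γ G' := by
  obtain ⟨t, ht⟩ := exists_good_time S herg hω T ha hG hm (2 * β) η hη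
  set B := S.flow t a with hB
  have hBM : B ∈ S.M := flow_mem' S t ha
  have hBv : B S.vac = S.D.wave t (a S.vac) := flow_vac S t a
  have hBK : S.D.SupportedIn K (B S.vac) := by rw [hBv]; exact SupportedIn.wave t haK
  have hs := pot_sign S T hβ γ G B
  have hBB : star B * B = S.flow t (star a * a) := by
    rw [hB, flow_mul, flow_star]
  have n1 : ‖(star B * B) S.vac‖ = ‖(star a * a) S.vac‖ := by
    rw [hBB, flow_vac, norm_wave]
  have n2 : ‖B S.vac‖ = ‖a S.vac‖ := by rw [hBv, norm_wave]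
  have g1 : ‖star G S.vac‖ ^ 2 ≤ Real.exp b * ‖G S.vac‖ ^ 2 := by
    have := star_vac_norm_le S hG hGK hK
    have h2 := pow_le_pow_left₀ (norm_nonneg _) this 2
    rw [mul_pow, ← Real.exp_nat_mul] at h2
    have : ((2 : ℕ) : ℝ) * (b / 2) = b := by push_cast; ring
    rwa [this] at h2
  have g2 : ‖star a S.vac‖ ^ 2 ≤ Real.exp b * ‖a S.vac‖ ^ 2 := by
    have := star_vac_norm_le S ha haK hK
    have h2 := pow_le_pow_left₀ (norm_nonneg _) this 2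
    rw [mul_pow, ← Real.exp_nat_mul] at h2
    have : ((2 : ℕ) : ℝ) * (b / 2) = b := by push_cast; ring
    rwa [this] at h2
  rw [n1, n2, hBB] at hs
  have key : 2 * (‖T (G S.vac)‖ ^ 2 + m - η
        - β * (‖(star G * G) S.vac‖ ^ 2 + ‖(star a * a) S.vac‖ ^ 2
        + 2 * (1 + 2 * Real.exp b) * ‖a S.vac‖ ^ 2 * ‖G S.vac‖ ^ 2)
        - γ * (‖G S.vac‖ ^ 2 + ‖a S.vac‖ ^ 2)) ≤
      pot S T β γ (G + B) + pot S T β γ (G + -B) := by
    refine le_trans ?_ hs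
    have e1 : ‖star G S.vac‖ ^ 2 * ‖a S.vac‖ ^ 2 ≤
      Real.exp b * ‖G S.vac‖ ^ 2 * ‖a S.vac‖ ^ 2 := mul_le_mul_of_nonneg_right g1 (by positivity)
    have e2 : ‖star a S.vac‖ ^ 2 * ‖G S.vac‖ ^ 2 ≤
      Real.exp b * ‖a S.vac‖ ^ 2 * ‖G S.vac‖ ^ 2 := mul_le_mul_of_nonneg_right g2 (by positivity)
    have e3 : β * (‖star G S.vac‖ ^ 2 * ‖a S.vac‖ ^ 2) ≤
      β * (Real.exp b * ‖G S.vac‖ ^ 2 * ‖a S.vac‖ ^ 2) := mul_le_mul_of_nonneg_left e1 hβ
    have e4 : β * (‖star a S.vac‖ ^ 2 * ‖G S.vac‖ ^ 2) ≤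
      β * (Real.exp b * ‖a S.vac‖ ^ 2 * ‖G S.vac‖ ^ 2) := mul_le_mul_of_nonneg_left e2 hβ
    linarith
  by_cases hc : ‖T (G S.vac)‖ ^ 2 + m - η
        - β * (‖(star G * G) S.vac‖ ^ 2 + ‖(star a * a) S.vac‖ ^ 2
        + 2 * (1 + 2 * Real.exp b) * ‖a S.vac‖ ^ 2 * ‖G S.vac‖ ^ 2)
        - γ * (‖G S.vac‖ ^ 2 + ‖a S.vac‖ ^ 2) ≤ pot S T β γ (G + B)
  · refine ⟨G + B, add_mem hG hBM, ?_, hc⟩
    rw [add_apply]
    exact SupportedIn.add hGK hBK
  · refine ⟨G + -B, add_mem hG (neg_mem hBM), ?_, by linarith⟩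
    rw [add_apply, neg_apply]
    exact SupportedIn.add hGK (SupportedIn.neg hBK)

end Crest.Agent.Helper7
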