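import Crest.Agent.Helper7.LineCalc2

set_option autoImplicit false

open Filter MeasureTheory Topology
open scoped InnerProductSpace BoundedContinuousFunction

namespace Crest.Agent.Helper7

open Crest.OpAlg Crest.OpAlg.LineCalculus

variable {H : Type*} [NormedAddCommGroup H] [InnerProductSpace ℂ H] [CompleteSpace H]

/-- a conjugate-linear isometry reverses inner products -/
theorem conj_isometry_inner (J : H ≃ₗᵢ⋆[ℂ] H) (x y : H) : ⟪J x, J y⟫_ℂ = ⟪y, x⟫_ℂ := by
  rw [inner_eq_sum_norm_sq_div_four, inner_eq_sum_norm_sq_div_four]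
  have h1 : ‖J x + J y‖ = ‖y + x‖ := by rw [← map_add, J.norm_map, add_comm]
  have h2 : ‖J x - J y‖ = ‖y - x‖ := by rw [← map_sub, J.norm_map, norm_sub_rev]
  have h3 : ‖J x - (RCLike.I : ℂ) • J y‖ = ‖y - (RCLike.I : ℂ) • x‖ := by
    have : J x - (RCLike.I : ℂ) • J y = J (x + (RCLike.I : ℂ) • y) := by
      rw [map_add, LinearIsometryEquiv.map_smulₛₗ]; simp [sub_eq_add_neg]
    rw [this, J.norm_map]
    have h : x + (RCLike.I : ℂ) • y = (RCLike.I : ℂ) • (y - (RCLike.I : ℂ) • x) := by
      rw [smul_sub, smul_smul]; simp; abel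
    rw [h, norm_smul]; simp
  have h4 : ‖J x + (RCLike.I : ℂ) • J y‖ = ‖y + (RCLike.I : ℂ) • x‖ := by
    have : J x + (RCLike.I : ℂ) • J y = J (x - (RCLike.I : ℂ) • y) := by
      rw [map_sub, LinearIsometryEquiv.map_smulₛₗ]; simp
    rw [this, J.norm_map]
    have h : x - (RCLike.I : ℂ) • y = (-(RCLike.I : ℂ)) • (y + (RCLike.I : ℂ) • x) := by
      rw [smul_add, smul_smul]; simp; abel
    rw [h, norm_smul]; simp
  rw [h1, h2, h3, h4]

theorem halfExp_vac (S : ModularDatum H) : S.D.HalfExp S.vac (S.J S.vac) := by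
  have hmem : ((S.vac, S.vac) : H × H) ∈ {p : H × H | S.D.HalfExp p.1 (S.J p.2)} := by
    rw [← S.tomita]
    exact subset_closure ⟨⟨1, one_mem S.M⟩, by simp⟩
  exact hmem

/-- multiply a compactly supported function by a continuous one -/
noncomputable def csMul (f : BoundedContinuousFunction ℝ ℂ) (hf : HasCompactSupport (f : ℝ → ℂ))
    (g : ℝ → ℂ) (hg : Continuous g) : BoundedContinuousFunction ℝ ℂ :=
  BoundedContinuousFunction.ofNormedAddCommGroup (fun u => f u * g u) (by fun_prop)
    (Classical.choose ((hf.mul_right (f' := g)).exists_bound_of_continuous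
      (f.continuous.mul hg)))
    (Classical.choose_spec ((hf.mul_right (f' := g)).exists_bound_of_continuous
      (f.continuous.mul hg)))

theorem csMul_apply (f : BoundedContinuousFunction ℝ ℂ) (hf : HasCompactSupport (f : ℝ → ℂ))
    (g : ℝ → ℂ) (hg : Continuous g) (u : ℝ) : csMul f hf g hg u = f u * g u := rfl

theorem csMul_hasCompactSupport (f : BoundedContinuousFunction ℝ ℂ)
    (hf : HasCompactSupport (f : ℝ → ℂ))
    (g : ℝ → ℂ) (hg : Continuous g) : HasCompactSupport (csMul f hf g hg : ℝ → ℂ) :=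
  hf.mul_right

/-- the complex function `u ↦ exp(u/2)` -/
noncomputable def eHalf (u : ℝ) : ℂ := ((Real.exp (u / 2) : ℝ) : ℂ)

theorem continuous_eHalf : Continuous eHalf := by unfold eHalf; fun_prop

theorem vac_modular (S : ModularDatum H) (f : BoundedContinuousFunction ℝ ℂ)
    (hf : HasCompactSupport (f : ℝ → ℂ)) :
    S.D.apply (csMul (csMul f hf eHalf continuous_eHalf)
      (csMul_hasCompactSupport _ _ _ _) eHalf continuous_eHalf) S.vac = S.D.apply f S.vac := by
  set g := csMul f hf eHalf continuous_eHalf with hg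
  have hgc : HasCompactSupport (g : ℝ → ℂ) := csMul_hasCompactSupport _ _ _ _
  set k := csMul g hgc eHalf continuous_eHalf with hk
  refine ext_inner_right ℂ fun x => ?_
  -- star functions
  have hsf : HasCompactSupport ((star f : BoundedContinuousFunction ℝ ℂ) : ℝ → ℂ) := by
    have : ((star f : BoundedContinuousFunction ℝ ℂ) : ℝ → ℂ) = fun u => star (f u) := rfl
    rw [this]
    exact hf.comp_left (g := star) (star_zero _)
  have hpair : S.D.HalfExp (S.D.apply (star f) x) (S.J (S.J (S.D.apply (star g) x))) := by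
    rw [S.J_J]
    intro f' g' hfg
    rw [← apply_mul_apply, ← apply_mul_apply]
    congr 2
    ext u
    simp only [BoundedContinuousFunction.coe_mul, Pi.mul_apply,
      BoundedContinuousFunction.star_apply]
    rw [hfg u, hg, csMul_apply, star_mul']
    have : star (eHalf u) = eHalf u := by
      unfold eHalf; exact Complex.conj_ofReal _
    rw [this]
    unfold eHalf
    ring
  have h1 := tomita_pairing S hpair
  -- ⟪J (g* x), ξ⟫ = ⟪J ξ, g* x⟫
  have h2 : ⟪S.J (S.D.apply (star g) x), S.vac⟫_ℂ = ⟪S.J S.vac, S.D.apply (star g) x⟫_ℂ := by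
    conv_lhs => rw [← S.J_J S.vac]
    rw [conj_isometry_inner]
  have h3 : ⟪S.J S.vac, S.D.apply (star g) x⟫_ℂ = ⟪S.D.apply g (S.J S.vac), x⟫_ℂ := by
    rw [map_star, ContinuousLinearMap.star_eq_adjoint, ContinuousLinearMap.adjoint_inner_right]
  have h4 : S.D.apply g (S.J S.vac) = S.D.apply k S.vac :=
    halfExp_vac S g k fun u => rfl
  have h5 : ⟪S.vac, S.D.apply (star f) x⟫_ℂ = ⟪S.D.apply f S.vac, x⟫_ℂ := by
    rw [map_star, ContinuousLinearMap.star_eq_adjoint, ContinuousLinearMap.adjoint_inner_right]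
  rw [← h4, ← h3, ← h2, h1, h5]

/-- the vacuum is fixed by the modular group -/
theorem wave_vac (S : ModularDatum H) (t : ℝ) : S.D.wave t S.vac = S.vac := by
  -- the quotient function `(exp(itu) - 1)/(exp u - 1)`
  let e1 : ℝ → ℂ := fun u => Complex.exp (Complex.I * ((t * u : ℝ) : ℂ))
  let e2 : ℝ → ℂ := fun u => ((Real.exp u : ℝ) : ℂ)
  have hd1 : Differentiable ℝ e1 := by
    intro u
    have : e1 = fun u : ℝ => Complex.exp (Complex.I * ((t : ℂ) * (u : ℂ))) := by
      funext v; simp [e1]
    rw [this]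
    fun_prop
  have hd2' : ∀ u : ℝ, HasDerivAt e2 (((Real.exp u : ℝ) : ℂ)) u := fun u =>
    (Real.hasDerivAt_exp u).ofReal_comp
  have hd2 : Differentiable ℝ e2 := fun u => (hd2' u).differentiableAt
  have hc1 : Continuous (dslope e1 0) := by
    rw [continuous_iff_continuousAt]
    intro u
    by_cases hu : u = 0
    · rw [hu]; exact continuousAt_dslope_same.2 (hd1 0)
    · exact (continuousAt_dslope_of_ne hu).2 (hd1 u).continuousAt
  have hc2 : Continuous (dslope e2 0) := by
    rw [continuous_iff_continuousAt]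
    intro u
    by_cases hu : u = 0
    · rw [hu]; exact continuousAt_dslope_same.2 (hd2 0)
    · exact (continuousAt_dslope_of_ne hu).2 (hd2 u).continuousAt
  have hne : ∀ u, dslope e2 0 u ≠ 0 := by
    intro u
    by_cases hu : u = 0
    · rw [hu, dslope_same, (hd2' 0).deriv]; simp
    · intro h0
      have := sub_smul_dslope e2 0 u
      rw [h0, smul_zero] at this
      have h2 : ((Real.exp u : ℝ) : ℂ) = ((Real.exp 0 : ℝ) : ℂ) := (sub_eq_zero.1 this.symm)
      have h3 : Real.exp u = Real.exp 0 := by exact_mod_cast h2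
      exact hu (Real.exp_injective h3)
  let r : ℝ → ℂ := fun u => dslope e1 0 u / dslope e2 0 u
  have hr : Continuous r := hc1.div hc2 hne
  have hrel : ∀ u, r u * (e2 u - 1) = e1 u - 1 := by
    intro u
    have h1 := sub_smul_dslope e1 0 u
    have h2 := sub_smul_dslope e2 0 u
    have e10 : e1 0 = 1 := by simp [e1]
    have e20 : e2 0 = 1 := by simp [e2]
    rw [e10] at h1
    rw [e20] at h2
    rw [← h1, ← h2]
    have := hne u
    simp only [r, Complex.real_smul]
    field_simp
  have hzero : S.D.apply (character t - 1) S.vac = 0 := by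
    refine eq_zero_of_apply S.D _ fun p hp => ?_
    rw [← apply_mul_apply]
    -- p * (character t - 1) = (p r) (exp u - 1)
    let q := csMul p hp r hr
    have hq : HasCompactSupport (q : ℝ → ℂ) := csMul_hasCompactSupport _ _ _ _
    have hv := vac_modular S q hq
    rw [← sub_eq_zero, ← ContinuousLinearMap.sub_apply, ← map_sub] at hv
    convert hv using 3
    ext u
    simp only [BoundedContinuousFunction.coe_mul, Pi.mul_apply, BoundedContinuousFunction.coe_sub,
      Pi.sub_apply, BoundedContinuousFunction.coe_one, Pi.one_apply, csMul_apply, q]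
    have hh : eHalf u * eHalf u = e2 u := by
      simp only [eHalf, e2]
      rw [← Complex.ofReal_mul, ← Real.exp_add]; congr 2; ring
    have := hrel u
    calc p u * (character t u - 1) = p u * (e1 u - 1) := rfl
      _ = p u * (r u * (e2 u - 1)) := by rw [this]
      _ = p u * r u * eHalf u * eHalf u - p u * r u := by rw [← hh]; ring
  rw [map_sub, map_one, ContinuousLinearMap.sub_apply, ContinuousLinearMap.one_apply,
    sub_eq_zero] at hzero
  exact hzero

end Crest.Agent.Helper7
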